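import Vale.Agent.P159.T1.H775.Energy

/-! # P159, T1, row EN: sums over sectors -/

open Set MeasureTheory
open scoped Real ENNReal

namespace Vale.Agent.P159.T1.H775

theorem wc_cont : Continuous wc := by
  have : wc = fun p : ℝ × ℝ => ((p.1 : ℂ) + (p.2 : ℂ) * Complex.I) := by
    funext p; apply Complex.ext <;> simp [wc]
  rw [this]; fun_prop

/-- the region in polar coordinates -/
def reg (α β K a b : ℝ) : Set (ℝ × ℝ) :=
  {p | (a ≤ p.1 ∧ p.1 ≤ b) ∧ α - K / p.1 ≤ p.2 ∧ p.2 ≤ β + K / p.1}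

theorem reg_meas (α β K a b : ℝ) : MeasurableSet (reg α β K a b) := by
  unfold reg
  refine (((measurableSet_le measurable_const measurable_fst).inter
    (measurableSet_le measurable_fst measurable_const)).inter
    ((measurableSet_le ?_ measurable_snd).inter (measurableSet_le measurable_snd ?_)))
  · exact measurable_const.sub (measurable_const.div measurable_fst)
  · exact measurable_const.add (measurable_const.div measurable_fst)

theorem polar_le {α β K a b : ℝ} (hαβ : α ≤ β) (hK : 0 ≤ K) (ha : 1 ≤ a) (hab : a ≤ b)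
    {U : Set (ℝ × ℝ)} (hU : MeasurableSet U)
    (h : ∀ r θ : ℝ, 0 < r → θ ∈ Ioo (-π) π → (r * Real.cos θ, r * Real.sin θ) ∈ U →
      (r, θ) ∈ reg α β K a b) :
    ∫⁻ p in U, ENNReal.ofReal (1 / ‖wc p‖ ^ 2 + 48 / ‖wc p‖ ^ 3) ≤
      ENNReal.ofReal ((β - α) * Real.log (b / a) + (48 * (β - α) + 98 * K) / a) := by
  set g : ℝ → ℝ := fun r => 1 / r + 48 / r ^ 2 with hg
  have hgm : Measurable (fun p : ℝ × ℝ => ENNReal.ofReal (g p.1)) := by
    refine ENNReal.measurable_ofReal.comp ?_
    simp only [hg]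
    exact (measurable_const.div measurable_fst).add
      (measurable_const.div (measurable_fst.pow_const 2))
  have step1 : ∫⁻ p in U, ENNReal.ofReal (1 / ‖wc p‖ ^ 2 + 48 / ‖wc p‖ ^ 3) ≤
      ∫⁻ p : ℝ × ℝ, (reg α β K a b).indicator (fun p => ENNReal.ofReal (g p.1)) p := by
    rw [← lintegral_indicator hU, ← lintegral_comp_polarCoord_symm]
    refine (setLIntegral_mono' polarCoord.open_target.measurableSet ?_).trans
      (setLIntegral_le_lintegral _ _)
    rintro ⟨r, θ⟩ ⟨hr, hθ⟩
    simp only [mem_Ioi] at hr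
    rw [polarCoord_symm_apply]
    by_cases hm : (r * Real.cos θ, r * Real.sin θ) ∈ U
    · rw [indicator_of_mem hm, indicator_of_mem (h r θ hr hθ hm), (wc_polar hr hθ).1]
      simp only [smul_eq_mul]
      rw [← ENNReal.ofReal_mul hr.le]
      refine ENNReal.ofReal_le_ofReal (le_of_eq ?_)
      simp only [hg]
      field_simp
    · simp only
      rw [indicator_of_notMem hm]
      simp
  have step2 : ∫⁻ p : ℝ × ℝ, (reg α β K a b).indicator (fun p => ENNReal.ofReal (g p.1)) p =
      ∫⁻ r : ℝ, ∫⁻ θ : ℝ, (reg α β K a b).indicator (fun p => ENNReal.ofReal (g p.1)) (r, θ) := by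
    rw [Measure.volume_eq_prod]
    exact lintegral_prod _ (hgm.indicator (reg_meas α β K a b)).aemeasurable
  set M : ℝ := 48 * (β - α) + 98 * K with hM
  have step3 : ∀ r : ℝ, ∫⁻ θ : ℝ, (reg α β K a b).indicator
      (fun p => ENNReal.ofReal (g p.1)) (r, θ) ≤
      (Icc a b).indicator (fun r => ENNReal.ofReal ((β - α) / r + M / r ^ 2)) r := by
    intro r
    by_cases hr : r ∈ Icc a b
    · rw [indicator_of_mem hr]
      have hr0 : 1 ≤ r := ha.trans hr.1
      have e : (fun θ : ℝ => (reg α β K a b).indicator (fun p => ENNReal.ofReal (g p.1)) (r, θ)) =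
          (Icc (α - K / r) (β + K / r)).indicator (fun _ => ENNReal.ofReal (g r)) := by
        funext θ
        by_cases hθ : θ ∈ Icc (α - K / r) (β + K / r)
        · rw [indicator_of_mem hθ, indicator_of_mem (show (r, θ) ∈ reg α β K a b from
            ⟨hr, hθ.1, hθ.2⟩)]
        · rw [indicator_of_notMem hθ, indicator_of_notMem (show (r, θ) ∉ reg α β K a b from
            fun h => hθ ⟨h.2.1, h.2.2⟩)]
      rw [e, lintegral_indicator measurableSet_Icc, setLIntegral_const, Real.volume_Icc,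
        ← ENNReal.ofReal_mul (by simp only [hg]; positivity)]
      refine ENNReal.ofReal_le_ofReal ?_
      have h1 : β + K / r - (α - K / r) = (β - α) + 2 * K / r := by ring
      rw [h1]
      simp only [hg, hM]
      have e1 : (1 / r + 48 / r ^ 2) * ((β - α) + 2 * K / r) =
          (β - α) / r + (48 * (β - α) + 2 * K + 96 * K / r) / r ^ 2 := by
        field_simp; ring
      rw [e1]
      have h2 : 96 * K / r ≤ 96 * K := div_le_self (by positivity) hr0
      have h3 : (48 * (β - α) + 2 * K + 96 * K / r) / r ^ 2 ≤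
          (48 * (β - α) + 98 * K) / r ^ 2 :=
        div_le_div_of_nonneg_right (by linarith) (by positivity)
      linarith
    · rw [indicator_of_notMem hr]
      have e : (fun θ : ℝ => (reg α β K a b).indicator (fun p => ENNReal.ofReal (g p.1)) (r, θ)) =
          fun _ => 0 := by
        funext θ
        rw [indicator_of_notMem (show (r, θ) ∉ reg α β K a b from fun h => hr h.1)]
      rw [e]; simp
  have ha0 : 0 < a := by linarith
  have hb0 : 0 < b := by linarith
  have hint : IntegrableOn (fun r : ℝ => (β - α) / r + M / r ^ 2) (Icc a b) := by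
    refine ContinuousOn.integrableOn_Icc ?_
    intro r hr
    have : r ≠ 0 := (lt_of_lt_of_le ha0 hr.1).ne'
    have h2 : r ^ 2 ≠ 0 := pow_ne_zero 2 this
    exact ((continuousAt_const.div continuousAt_id this).add
      (continuousAt_const.div (continuousAt_id.pow 2) h2)).continuousWithinAt
  have step4 : ∫⁻ r : ℝ, (Icc a b).indicator
      (fun r => ENNReal.ofReal ((β - α) / r + M / r ^ 2)) r =
      ENNReal.ofReal (∫ r in Icc a b, ((β - α) / r + M / r ^ 2)) := by
    rw [lintegral_indicator measurableSet_Icc]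
    rw [ofReal_integral_eq_lintegral_ofReal hint]
    refine (ae_restrict_iff' measurableSet_Icc).2 (Filter.Eventually.of_forall fun r hr => ?_)
    have hr0 : 0 < r := lt_of_lt_of_le ha0 hr.1
    have hM0 : 0 ≤ M := by simp only [hM]; nlinarith
    have : 0 ≤ (β - α) / r := div_nonneg (by linarith) hr0.le
    have : 0 ≤ M / r ^ 2 := by positivity
    simp only [Pi.zero_apply]
    linarith
  have step5 : ∫ r in Icc a b, ((β - α) / r + M / r ^ 2) ≤
      (β - α) * Real.log (b / a) + M / a := by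
    rw [integral_Icc_eq_integral_Ioc, ← intervalIntegral.integral_of_le hab]
    have hd : ∀ r ∈ uIcc a b, HasDerivAt (fun r : ℝ => (β - α) * Real.log r - M / r)
        ((β - α) / r + M / r ^ 2) r := by
      intro r hr
      rw [uIcc_of_le hab] at hr
      have hr0 : r ≠ 0 := (lt_of_lt_of_le ha0 hr.1).ne'
      have h1 := (Real.hasDerivAt_log hr0).const_mul (β - α)
      have h2 := (hasDerivAt_inv hr0).const_mul M
      have h3 := h1.sub h2
      refine (h3.congr_deriv ?_)
      field_simp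
      ring
    rw [intervalIntegral.integral_eq_sub_of_hasDerivAt hd]
    · rw [Real.log_div hb0.ne' ha0.ne']
      have : 0 ≤ M / b := by
        have hM0 : 0 ≤ M := by simp only [hM]; nlinarith
        positivity
      linarith
    · rw [intervalIntegrable_iff_integrableOn_Icc_of_le hab]
      exact hint
  calc ∫⁻ p in U, ENNReal.ofReal (1 / ‖wc p‖ ^ 2 + 48 / ‖wc p‖ ^ 3)
      ≤ ∫⁻ p : ℝ × ℝ, (reg α β K a b).indicator (fun p => ENNReal.ofReal (g p.1)) p := step1
    _ = ∫⁻ r : ℝ, ∫⁻ θ : ℝ, (reg α β K a b).indicator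
          (fun p => ENNReal.ofReal (g p.1)) (r, θ) := step2
    _ ≤ ∫⁻ r : ℝ, (Icc a b).indicator
          (fun r => ENNReal.ofReal ((β - α) / r + M / r ^ 2)) r := lintegral_mono step3
    _ = ENNReal.ofReal (∫ r in Icc a b, ((β - α) / r + M / r ^ 2)) := step4
    _ ≤ _ := ENNReal.ofReal_le_ofReal step5

theorem cell_meas (P : ℤ × ℤ) : MeasurableSet (cell P) := measurableSet_Ico.prod measurableSet_Ico

theorem cell_vol (P : ℤ × ℤ) : volume (cell P) = 1 := by
  unfold cell
  rw [Measure.volume_eq_prod, Measure.prod_prod, Real.volume_Ico, Real.volume_Ico]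
  simp

theorem cell_disj (S : Set (ℤ × ℤ)) : S.PairwiseDisjoint cell := by
  intro P _ Q _ hPQ
  rw [Function.onFun, Set.disjoint_left]
  rintro p ⟨⟨h1, h2⟩, ⟨h3, h4⟩⟩ ⟨⟨h5, h6⟩, ⟨h7, h8⟩⟩
  apply hPQ
  have a1 : (P.1 : ℝ) < Q.1 + 1 := by linarith
  have a2 : (Q.1 : ℝ) < P.1 + 1 := by linarith
  have a3 : (P.2 : ℝ) < Q.2 + 1 := by linarith
  have a4 : (Q.2 : ℝ) < P.2 + 1 := by linarith
  have b1 : P.1 < Q.1 + 1 := by exact_mod_cast a1
  have b2 : Q.1 < P.1 + 1 := by exact_mod_cast a2
  have b3 : P.2 < Q.2 + 1 := by exact_mod_cast a3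
  have b4 : Q.2 < P.2 + 1 := by exact_mod_cast a4
  ext <;> omega

/-- **EN3**: the energy of `log |z|` in a sector -/
theorem sector_energy {α β k n R : ℝ} (hαβ : α ≤ β) (hk : 0 ≤ k) (hn : 12 ≤ n) (hR : n ≤ R)
    (S : Finset (ℤ × ℤ)) (h1 : ∀ P ∈ S, n ≤ ‖zc P‖ ∧ ‖zc P‖ ≤ R)
    (h2 : ∀ P ∈ S, α ≤ (zc P).arg + k / ‖zc P‖ ∧ (zc P).arg ≤ β + k / ‖zc P‖) :
    ∑ P ∈ S, en P ≤ (β - α) * Real.log ((R + 2) / (n - 2)) +
      (48 * (β - α) + 98 * (2 * k + 3)) / (n - 2) := by
  have hen : ∀ P, 0 ≤ en P := fun P => by unfold en; positivity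
  have hπ : π ≤ 4 := Real.pi_le_four
  have hcell : ∀ P ∈ S, ∀ p ∈ cell P, n - 2 ≤ ‖wc p‖ ∧ ‖wc p‖ ≤ R + 2 := by
    intro P hP p hp
    have ha := norm_cell hp
    have hb := h1 P hP
    have hc := norm_sub_norm_le (zc P) (wc p)
    have hd := norm_sub_norm_le (wc p) (zc P)
    rw [norm_sub_rev] at hc
    constructor <;> linarith
  have key : ENNReal.ofReal (∑ P ∈ S, en P) ≤
      ENNReal.ofReal ((β - α) * Real.log ((R + 2) / (n - 2)) +
      (48 * (β - α) + 98 * (2 * k + 3)) / (n - 2)) := by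
    calc ENNReal.ofReal (∑ P ∈ S, en P) = ∑ P ∈ S, ENNReal.ofReal (en P) :=
          ENNReal.ofReal_sum_of_nonneg fun P _ => hen P
      _ ≤ ∑ P ∈ S, ∫⁻ p in cell P, ENNReal.ofReal (1 / ‖wc p‖ ^ 2 + 48 / ‖wc p‖ ^ 3) := by
          refine Finset.sum_le_sum fun P hP => ?_
          calc ENNReal.ofReal (en P) = ∫⁻ p in cell P, ENNReal.ofReal (en P) := by
                rw [setLIntegral_const, cell_vol, mul_one]
            _ ≤ _ := by
                refine setLIntegral_mono' (cell_meas P) fun p hp => ?_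
                refine ENNReal.ofReal_le_ofReal (en_le hp ?_)
                linarith [(hcell P hP p hp).1]
      _ = ∫⁻ p in ⋃ P ∈ S, cell P, ENNReal.ofReal (1 / ‖wc p‖ ^ 2 + 48 / ‖wc p‖ ^ 3) :=
          (lintegral_biUnion_finset (cell_disj _) (fun P _ => cell_meas P) _).symm
      _ ≤ _ := by
          refine polar_le (K := 2 * k + 3) hαβ (by linarith) (by linarith) (by linarith)
            (Finset.measurableSet_biUnion _ fun P _ => cell_meas P) ?_
          intro r θ hr hθ hm
          simp only [mem_iUnion, exists_prop] at hm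
          obtain ⟨P, hP, hp⟩ := hm
          obtain ⟨e1, e2⟩ := wc_polar hr hθ
          have hc := hcell P hP _ hp
          have hzP := h1 P hP
          have harg := h2 P hP
          rw [e1] at hc
          have hn1 := norm_cell hp
          have hz0 : zc P ≠ 0 := by
            rw [← norm_pos_iff]; linarith
          have hw0 : wc (r * Real.cos θ, r * Real.sin θ) ≠ 0 := by
            rw [← norm_pos_iff, e1]; exact hr
          have hcl := arg_close hz0 hw0 (by linarith) (side_cell hp)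
          rw [e1, e2] at hcl
          have h3 : π / 2 * (‖wc (r * Real.cos θ, r * Real.sin θ) - zc P‖ / r) ≤ 3 / r := by
            rw [div_eq_mul_inv _ r, ← mul_assoc, div_eq_mul_inv (3 : ℝ) r]
            refine mul_le_mul_of_nonneg_right ?_ (by positivity)
            nlinarith [norm_nonneg (wc (r * Real.cos θ, r * Real.sin θ) - zc P)]
          have h4 : k / ‖zc P‖ ≤ 2 * k / r := by
            have : r ≤ 2 * ‖zc P‖ := by
              have := norm_sub_norm_le (wc (r * Real.cos θ, r * Real.sin θ)) (zc P)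
              rw [e1] at this
              linarith
            rw [div_le_div_iff₀ (by linarith) hr]
            nlinarith
          have h5 := abs_le.1 (hcl.trans h3)
          have e3 : (2 * k + 3) / r = 2 * k / r + 3 / r := by ring
          refine ⟨⟨hc.1, hc.2⟩, ?_, ?_⟩
          · simp only
            rw [e3]; linarith [h5.1, harg.1]
          · simp only
            rw [e3]; linarith [h5.2, harg.2]
  have hpos : 0 ≤ (β - α) * Real.log ((R + 2) / (n - 2)) +
      (48 * (β - α) + 98 * (2 * k + 3)) / (n - 2) := by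
    have h3 : 0 ≤ Real.log ((R + 2) / (n - 2)) := by
      apply Real.log_nonneg
      rw [le_div_iff₀ (by linarith)]; linarith
    have h4 : 0 ≤ (48 * (β - α) + 98 * (2 * k + 3)) / (n - 2) := by
      apply div_nonneg _ (by linarith)
      nlinarith
    have h5 : 0 ≤ (β - α) * Real.log ((R + 2) / (n - 2)) := mul_nonneg (by linarith) h3
    linarith
  exact (ENNReal.ofReal_le_ofReal_iff hpos).1 key

/-- sums of `|P|⁻²` over annuli -/
theorem sum_inv_sq {n R : ℝ} (hn : 12 ≤ n) (hR : n ≤ R) (S : Finset (ℤ × ℤ))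
    (h1 : ∀ P ∈ S, n ≤ ‖zc P‖ ∧ ‖zc P‖ ≤ R) :
    ∑ P ∈ S, 1 / ‖zc P‖ ^ 2 ≤ 16 * Real.log ((R + 2) / (n - 2)) + 1400 / (n - 2) := by
  have hπ : π ≤ 4 := Real.pi_le_four
  have hπ' : π < 3.15 := Real.pi_lt_d2
  have hcell : ∀ P ∈ S, ∀ p ∈ cell P, n - 2 ≤ ‖wc p‖ ∧ ‖wc p‖ ≤ R + 2 ∧
      1 / ‖zc P‖ ^ 2 ≤ 2 * (1 / ‖wc p‖ ^ 2 + 48 / ‖wc p‖ ^ 3) := by
    intro P hP p hp
    have ha := norm_cell hp
    have hb := h1 P hP
    have hc := norm_sub_norm_le (zc P) (wc p)
    have hd := norm_sub_norm_le (wc p) (zc P)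
    rw [norm_sub_rev] at hc
    refine ⟨by linarith, by linarith, ?_⟩
    have hw : 0 < ‖wc p‖ := by linarith
    have hz : 0 < ‖zc P‖ := by linarith
    have e1 : 1 / ‖zc P‖ ^ 2 ≤ 2 * (1 / ‖wc p‖ ^ 2) := by
      rw [mul_one_div, div_le_div_iff₀ (by positivity) (by positivity)]
      have h3 : ‖wc p‖ ≤ 7 / 6 * ‖zc P‖ := by linarith
      have : ‖wc p‖ ^ 2 ≤ (7 / 6 * ‖zc P‖) ^ 2 := pow_le_pow_left₀ hw.le h3 2
      nlinarith [sq_nonneg ‖zc P‖]
    have e2 : 0 ≤ 48 / ‖wc p‖ ^ 3 := by positivity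
    linarith
  have key : ENNReal.ofReal (∑ P ∈ S, 1 / ‖zc P‖ ^ 2) ≤
      ENNReal.ofReal (2 * ((π - (-π)) * Real.log ((R + 2) / (n - 2)) +
      (48 * (π - (-π)) + 98 * 3) / (n - 2))) := by
    calc ENNReal.ofReal (∑ P ∈ S, 1 / ‖zc P‖ ^ 2)
        = ∑ P ∈ S, ENNReal.ofReal (1 / ‖zc P‖ ^ 2) :=
          ENNReal.ofReal_sum_of_nonneg fun P _ => by positivity
      _ ≤ ∑ P ∈ S, ∫⁻ p in cell P,
            ENNReal.ofReal (2 * (1 / ‖wc p‖ ^ 2 + 48 / ‖wc p‖ ^ 3)) := by
          refine Finset.sum_le_sum fun P hP => ?_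
          calc ENNReal.ofReal (1 / ‖zc P‖ ^ 2)
              = ∫⁻ p in cell P, ENNReal.ofReal (1 / ‖zc P‖ ^ 2) := by
                rw [setLIntegral_const, cell_vol, mul_one]
            _ ≤ _ := by
                refine setLIntegral_mono' (cell_meas P) fun p hp => ?_
                exact ENNReal.ofReal_le_ofReal (hcell P hP p hp).2.2
      _ = ∫⁻ p in ⋃ P ∈ S, cell P,
            ENNReal.ofReal (2 * (1 / ‖wc p‖ ^ 2 + 48 / ‖wc p‖ ^ 3)) :=
          (lintegral_biUnion_finset (cell_disj _) (fun P _ => cell_meas P) _).symm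
      _ = ENNReal.ofReal 2 * ∫⁻ p in ⋃ P ∈ S, cell P,
            ENNReal.ofReal (1 / ‖wc p‖ ^ 2 + 48 / ‖wc p‖ ^ 3) := by
          rw [← lintegral_const_mul' _ _ ENNReal.ofReal_ne_top]
          refine lintegral_congr fun p => ?_
          rw [← ENNReal.ofReal_mul (by norm_num)]
      _ ≤ ENNReal.ofReal 2 * ENNReal.ofReal ((π - (-π)) * Real.log ((R + 2) / (n - 2)) +
            (48 * (π - (-π)) + 98 * 3) / (n - 2)) := by
          refine mul_le_mul_right ?_ _
          refine polar_le (K := 3) (by linarith [Real.pi_pos]) (by norm_num) (by linarith)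
            (by linarith) (Finset.measurableSet_biUnion _ fun P _ => cell_meas P) ?_
          intro r θ hr hθ hm
          simp only [mem_iUnion, exists_prop] at hm
          obtain ⟨P, hP, hp⟩ := hm
          obtain ⟨e1, -⟩ := wc_polar hr hθ
          have hc := hcell P hP _ hp
          rw [e1] at hc
          have h3 : 0 ≤ 3 / r := by positivity
          refine ⟨⟨hc.1, hc.2.1⟩, ?_, ?_⟩
          · simp only; linarith [hθ.1]
          · simp only; linarith [hθ.2]
      _ = _ := by rw [← ENNReal.ofReal_mul (by norm_num)]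
  have h3 : 0 ≤ Real.log ((R + 2) / (n - 2)) := by
    apply Real.log_nonneg
    rw [le_div_iff₀ (by linarith)]; linarith
  have hpos : 0 ≤ 2 * ((π - (-π)) * Real.log ((R + 2) / (n - 2)) +
      (48 * (π - (-π)) + 98 * 3) / (n - 2)) := by
    have hp := Real.pi_pos
    have h4 : 0 ≤ (48 * (π - (-π)) + 98 * 3) / (n - 2) := by
      apply div_nonneg _ (by linarith)
      nlinarith
    have h5 : 0 ≤ (π - (-π)) * Real.log ((R + 2) / (n - 2)) := mul_nonneg (by linarith) h3
    linarith
  refine ((ENNReal.ofReal_le_ofReal_iff hpos).1 key).trans ?_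
  have h6 : (48 * (π - (-π)) + 98 * 3) / (n - 2) ≤ 700 / (n - 2) :=
    div_le_div_of_nonneg_right (by linarith) (by linarith)
  have h7 : 2 * (700 / (n - 2)) = 1400 / (n - 2) := by ring
  nlinarith

end Vale.Agent.P159.T1.H775
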