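import Vale.Agent.P159.T1.H565.UpDefs
import Vale.Agent.P159.T1.H775.Polar

/-! # P159, T1, D.UP: the energy of the tilt field (`StmtEN`) -/

open Set
open scoped Real

namespace Vale.Agent.P159.T1.H775

open Vale.Agent.P159.T1.D Vale.Agent.P159.T1.H565

theorem tau_eq (P : Z2) : tau P = tc P := by
  unfold tau tc zc
  rw [Complex.norm_def, Complex.normSq_apply]
  congr 2
  ring

theorem clp_lip (a A x y : ℝ) : |clp a A x - clp a A y| ≤ |x - y| := by
  unfold clp
  refine (abs_max_sub_max_le_max _ _ _ _).trans ?_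
  rw [sub_self, abs_zero]
  refine max_le (abs_nonneg _) ?_
  refine (abs_min_sub_min_le_max _ _ _ _).trans ?_
  rw [sub_self, abs_zero]
  exact max_le le_rfl (abs_nonneg _)

theorem clp_const {a A x : ℝ} (h : Real.log A ≤ x) : clp a A x = max (Real.log a) (Real.log A) := by
  unfold clp
  rw [min_eq_right h]

/-- the stream difference with the clamp is at most that of `log` -/
theorem gs_clp_sq (a A : ℝ) (e : Bnd) :
    gs (fun P => clp a A (tau P)) e ^ 2 ≤ gs tc e ^ 2 := by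
  rw [← sq_abs, ← sq_abs (gs tc e)]
  refine pow_le_pow_left₀ (abs_nonneg _) ?_ 2
  unfold gs
  refine (clp_lip _ _ _ _).trans (le_of_eq ?_)
  rw [tau_eq, tau_eq]

theorem norm_bt (e : Bnd) : ‖zc (bt e) - zc (bs e)‖ = 1 := by
  obtain ⟨P, d⟩ := e
  cases d
  · have : zc (bt (P, false)) = zc (bs (P, false)) + 1 := zc_e1 P
    rw [this]; simp
  · have : zc (bt (P, true)) = zc (bs (P, true)) + Complex.I := zc_e2 P
    rw [this]; simp

/-- far bonds do not contribute -/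
theorem gs_clp_zero {a A : ℝ} (hA : 0 < A) (e : Bnd) (h : A + 1 < ‖zc (bs e)‖) :
    gs (fun P => clp a A (tau P)) e = 0 := by
  have h1 := norm_bt e
  have h2 : A ≤ ‖zc (bt e)‖ := by
    have := norm_sub_norm_le (zc (bs e)) (zc (bt e))
    rw [norm_sub_rev] at h1
    linarith
  unfold gs
  simp only
  rw [clp_const, clp_const, sub_self]
  · rw [tau_eq]; exact Real.log_le_log hA (by linarith)
  · rw [tau_eq]; exact Real.log_le_log hA h2

theorem gs_tc_le_en (P : Z2) (d : Bool) : gs tc (P, d) ^ 2 ≤ en P := by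
  unfold gs en bs bt
  cases d
  · simp only [Bool.false_eq_true, if_false]
    nlinarith [sq_nonneg (tc (P.1, P.2 + 1) - tc P)]
  · simp only [if_true]
    nlinarith [sq_nonneg (tc (P.1 + 1, P.2) - tc P)]

theorem en_eq (P : Z2) : en P = gs tc (P, false) ^ 2 + gs tc (P, true) ^ 2 := by
  unfold gs en bs bt
  simp

/-- the argument in the open third quadrant -/
theorem arg_third {z : ℂ} (hr : z.re < 0) (hi : z.im < 0) :
    z.arg = Real.arctan (z.im / z.re) - π := by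
  have h1 : z.arg < -(π / 2) := by
    by_contra h
    push Not at h
    rw [Complex.neg_pi_div_two_le_arg_iff] at h
    rcases h with h | h <;> linarith
  have h2 := Complex.neg_pi_lt_arg z
  have h3 : Real.tan (z.arg + π) = z.im / z.re := by
    rw [Real.tan_add_pi, Complex.tan_arg]
  rw [← h3, Real.arctan_tan (by linarith [Real.pi_pos]) (by linarith [Real.pi_pos])]
  ring

theorem arctan_add_le {x δ : ℝ} (hδ : 0 ≤ δ) : Real.arctan (x + δ) ≤ Real.arctan x + δ := by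
  have hL : ∀ y : ℝ, ‖deriv Real.arctan y‖ ≤ 1 := by
    intro y
    rw [Real.deriv_arctan, Real.norm_eq_abs, abs_of_nonneg (by positivity)]
    rw [div_le_one (by positivity)]
    nlinarith [sq_nonneg y]
  have := Convex.norm_image_sub_le_of_norm_deriv_le (f := Real.arctan) (s := univ) (x := x)
    (y := x + δ) (C := 1) (fun y _ => Real.differentiableAt_arctan y) (fun y _ => hL y)
    convex_univ (mem_univ _) (mem_univ _)
  rw [Real.norm_eq_abs, Real.norm_eq_abs] at this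
  have h2 := le_abs_self (Real.arctan (x + δ) - Real.arctan x)
  have h3 : |x + δ - x| = δ := by rw [add_sub_cancel_left, abs_of_nonneg hδ]
  rw [h3] at this
  linarith

theorem ang_le (q : ℕ) (hq : 1 ≤ q) : 0 < ang q ∧ ang q ≤ π / 4 := by
  unfold ang
  have hq' : (1 : ℝ) ≤ q := by exact_mod_cast hq
  constructor
  · have := Real.arctan_strictMono (show (0 : ℝ) < 1 / q by positivity)
    rwa [Real.arctan_zero] at this
  · rw [← Real.arctan_one]
    refine Real.arctan_mono ?_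
    rw [div_le_one (by positivity)]
    exact hq'

/-- sites of the bonds of type `A` (coefficient `c₂`) -/
theorem arg_A {q : ℕ} (hq : 1 ≤ q) {P : Z2} (h1 : P.2 ≤ -1) (h2 : (q : ℤ) * (-1 - P.2) ≤ -P.1)
    (h0 : P.1 < 0) : (zc P).arg ≤ -π + ang q + 4 / ‖zc P‖ := by
  have hq' : (1 : ℝ) ≤ q := by exact_mod_cast hq
  have h0' : (P.1 : ℝ) < 0 := by exact_mod_cast h0
  have h1' : (P.2 : ℝ) ≤ -1 := by exact_mod_cast h1
  have h2' : (q : ℝ) * (-1 - P.2) ≤ -P.1 := by exact_mod_cast h2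
  have h0'' : (P.1 : ℝ) ≤ -1 := by
    have : P.1 ≤ -1 := by omega
    exact_mod_cast this
  have ha := arg_third (z := zc P) h0' (by simp only [zc]; linarith)
  rw [ha]
  simp only [zc]
  have e1 : (P.2 : ℝ) / P.1 ≤ 1 / q + 1 / (-P.1) := by
    rw [div_add_div _ _ (by positivity) (by linarith), show (P.2 : ℝ) / P.1 = (-P.2) / (-P.1) by
      rw [neg_div_neg_eq], div_le_div_iff₀ (by linarith) (by nlinarith)]
    nlinarith
  have e2 : Real.arctan ((P.2 : ℝ) / P.1) ≤ ang q + 1 / (-P.1) :=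
    (Real.arctan_mono e1).trans (arctan_add_le (by
      apply div_nonneg <;> linarith))
  have e3 : 1 / (-(P.1 : ℝ)) ≤ 4 / ‖(⟨(P.1 : ℝ), (P.2 : ℝ)⟩ : ℂ)‖ := by
    have hz : (⟨(P.1 : ℝ), (P.2 : ℝ)⟩ : ℂ) ≠ 0 := by
      intro h
      have := congrArg Complex.re h
      simp at this
      rw [this] at h0
      exact absurd h0 (lt_irrefl _)
    have hpos := norm_pos_iff.2 hz
    rw [div_le_div_iff₀ (by linarith) hpos]
    have h3 : ‖(⟨(P.1 : ℝ), (P.2 : ℝ)⟩ : ℂ)‖ ≤ |(P.1 : ℝ)| + |(P.2 : ℝ)| :=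
      Complex.norm_le_abs_re_add_abs_im _
    rw [abs_of_neg h0', abs_of_neg (by linarith)] at h3
    nlinarith
  linarith

/-- sites of the bonds of type `B` (coefficient `c₁`) -/
theorem arg_B {q : ℕ} (hq : 1 ≤ q) {P : Z2} (h : 0 ≤ P.2 ∨ -P.1 < (q : ℤ) * (-P.2)) :
    -π + ang q ≤ (zc P).arg := by
  obtain ⟨ha0, ha1⟩ := ang_le q hq
  have hπ := Real.pi_pos
  rcases le_or_gt 0 P.2 with h1 | h1
  · have : 0 ≤ (zc P).im := by simp only [zc]; exact_mod_cast h1
    rw [← Complex.arg_nonneg_iff] at this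
    linarith
  · rcases le_or_gt 0 P.1 with h2 | h2
    · have : -(π / 2) ≤ (zc P).arg := by
        rw [Complex.neg_pi_div_two_le_arg_iff]
        left
        simp only [zc]; exact_mod_cast h2
      linarith
    · have h3 : -P.1 < (q : ℤ) * (-P.2) := by
        rcases h with h | h
        · omega
        · exact h
      have h1' : (P.2 : ℝ) < 0 := by exact_mod_cast h1
      have h2' : (P.1 : ℝ) < 0 := by exact_mod_cast h2
      have h3' : -(P.1 : ℝ) < (q : ℝ) * (-P.2) := by exact_mod_cast h3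
      have hq' : (1 : ℝ) ≤ q := by exact_mod_cast hq
      rw [arg_third (z := zc P) h2' h1']
      have : Real.arctan (1 / q) ≤ Real.arctan ((zc P).im / (zc P).re) := by
        refine Real.arctan_mono ?_
        simp only [zc]
        rw [show (P.2 : ℝ) / P.1 = (-P.2) / (-P.1) by rw [neg_div_neg_eq],
          div_le_div_iff₀ (by linarith) (by linarith)]
        linarith
      unfold ang
      linarith

/-- the bonds with coefficient `c₂` -/
def pA (q : ℕ) (e : Bnd) : Prop :=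
  (rt e ∈ cone q ∧ lf e ∈ cone q) ∨ (rt e ∈ cone q ∧ e.2 = false ∧ e.1.2 = -1)

theorem pA_imp {q : ℕ} (hq : 1 ≤ q) {e : Bnd} (h : pA q e) :
    e.1.2 ≤ -1 ∧ (q : ℤ) * (-1 - e.1.2) ≤ -e.1.1 ∧ e.1.1 < 0 := by
  have hq' : (1 : ℤ) ≤ q := by exact_mod_cast hq
  obtain ⟨P, d⟩ := e
  have hrt : rt (P, d) ∈ cone q := by rcases h with h | h <;> exact h.1
  cases d
  · simp only [rt, cone, Set.mem_ofPred_eq, Bool.false_eq_true, if_false] at hrt
    obtain ⟨h1, h2⟩ := hrt
    simp only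
    refine ⟨by omega, by nlinarith, by nlinarith⟩
  · simp only [rt, cone, Set.mem_ofPred_eq, if_true] at hrt
    obtain ⟨h1, h2⟩ := hrt
    simp only
    refine ⟨by omega, h2, by nlinarith⟩

theorem not_pA_imp {q : ℕ} (hq : 1 ≤ q) {e : Bnd} (h : ¬ pA q e) :
    (0 ≤ e.1.2 ∨ -e.1.1 < (q : ℤ) * (-e.1.2)) ∨ (e.2 = true ∧ e.1.2 = -1 ∧ e.1.1 < 0) := by
  have hq' : (1 : ℤ) ≤ q := by exact_mod_cast hq
  obtain ⟨P, d⟩ := e
  by_contra hc
  push Not at hc
  obtain ⟨⟨h1, h2⟩, h3⟩ := hc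
  simp only at h1 h2 h3
  apply h
  have hP1 : P.1 < 0 := by nlinarith
  cases d
  · have hr : rt (P, false) ∈ cone q := by
      simp only [rt, cone, Set.mem_ofPred_eq, Bool.false_eq_true, if_false]
      refine ⟨by omega, ?_⟩
      have : (q : ℤ) * (-1 - (P.2 - 1)) = (q : ℤ) * (-P.2) := by ring
      rw [this]; exact h2
    rcases eq_or_ne P.2 (-1) with h4 | h4
    · exact Or.inr ⟨hr, rfl, h4⟩
    · refine Or.inl ⟨hr, ?_⟩
      simp only [lf, cone, Set.mem_ofPred_eq, Bool.false_eq_true, if_false]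
      refine ⟨by omega, by nlinarith⟩
  · have h4 : P.2 ≠ -1 := by
      intro h4
      have := h3 rfl h4
      omega
    refine Or.inl ⟨?_, ?_⟩
    · simp only [rt, cone, Set.mem_ofPred_eq, if_true]
      refine ⟨by omega, by nlinarith⟩
    · simp only [lf, cone, Set.mem_ofPred_eq, if_true]
      refine ⟨by omega, by nlinarith⟩

theorem sum_le_en (A : Finset Bnd) : ∑ e ∈ A, gs tc e ^ 2 ≤ ∑ P ∈ A.image Prod.fst, en P := by
  classical
  have h1 : A ⊆ (A.image Prod.fst) ×ˢ (Finset.univ : Finset Bool) := by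
    intro e he
    rw [Finset.mem_product]
    exact ⟨Finset.mem_image_of_mem _ he, Finset.mem_univ _⟩
  refine (Finset.sum_le_sum_of_subset_of_nonneg h1 fun _ _ _ => sq_nonneg _).trans ?_
  rw [Finset.sum_product]
  refine le_of_eq (Finset.sum_congr rfl fun P _ => ?_)
  rw [en_eq, Fintype.sum_bool]
  ring

theorem en_nonneg (P : Z2) : 0 ≤ en P := by unfold en; positivity

theorem sum_sector {α β k R : ℝ} (hαβ : α ≤ β) (hk : 0 ≤ k) (A : Finset Bnd)
    (h1 : ∀ e ∈ A, 12 ≤ ‖zc e.1‖ ∧ ‖zc e.1‖ ≤ R)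
    (h2 : ∀ e ∈ A, α ≤ (zc e.1).arg + k / ‖zc e.1‖ ∧ (zc e.1).arg ≤ β + k / ‖zc e.1‖)
    {r : ℕ} (hr : 1 ≤ r) (hR : R = (r : ℝ) / 4 + 1) :
    ∑ e ∈ A, gs tc e ^ 2 ≤ (β - α) * Real.log r + (48 * (β - α) + 98 * (2 * k + 3)) := by
  have hr' : (1 : ℝ) ≤ r := by exact_mod_cast hr
  have hlog : 0 ≤ Real.log r := Real.log_nonneg hr'
  rcases A.eq_empty_or_nonempty with rfl | ⟨e0, he0⟩
  · rw [Finset.sum_empty]
    have : 0 ≤ (β - α) * Real.log r := mul_nonneg (by linarith) hlog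
    nlinarith
  have hR12 : 12 ≤ R := (h1 e0 he0).1.trans (h1 e0 he0).2
  refine (sum_le_en A).trans ((sector_energy hαβ hk (le_refl 12) hR12 _ ?_ ?_).trans ?_)
  · intro P hP
    obtain ⟨e, he, rfl⟩ := Finset.mem_image.1 hP
    exact h1 e he
  · intro P hP
    obtain ⟨e, he, rfl⟩ := Finset.mem_image.1 hP
    exact h2 e he
  · have h3 : Real.log ((R + 2) / (12 - 2)) ≤ Real.log r := by
      refine Real.log_le_log (by positivity) ?_
      rw [div_le_iff₀ (by norm_num), hR]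
      linarith
    have h4 : (48 * (β - α) + 98 * (2 * k + 3)) / (12 - 2) ≤ 48 * (β - α) + 98 * (2 * k + 3) :=
      div_le_self (by nlinarith) (by norm_num)
    have h5 : (β - α) * Real.log ((R + 2) / (12 - 2)) ≤ (β - α) * Real.log r :=
      mul_le_mul_of_nonneg_left h3 (by linarith)
    linarith

theorem sum_exc (X : Finset Bnd) (h : ∀ e ∈ X, 12 ≤ ‖zc e.1‖ ∧ e.2 = true ∧ e.1.2 = -1 ∧
    e.1.1 < 0) : ∑ e ∈ X, gs tc e ^ 2 ≤ ∑' n : ℕ, 4 * (1 / (n : ℝ) ^ 2) := by
  classical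
  have hs : Summable fun n : ℕ => 4 * (1 / (n : ℝ) ^ 2) :=
    (Real.summable_one_div_nat_pow.2 (by norm_num)).mul_left 4
  have h1 : ∀ e ∈ X, gs tc e ^ 2 ≤ 4 * (1 / ((e.1.1.natAbs : ℕ) : ℝ) ^ 2) := by
    rintro ⟨P, d⟩ he
    obtain ⟨h12, hd, hP2, hP1⟩ := h _ he
    simp only at h12 hd hP2 hP1
    subst hd
    have hΓ : ∀ t : ℝ, HasDerivAt (fun t : ℝ => t) ((fun _ : ℝ => (1 : ℝ)) t) t :=
      fun t => hasDerivAt_id t
    have hI := inc_abs (A := 1) (v := Complex.I) (z := zc P) (m := ‖zc P‖ - 1) hΓ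
      (by intro t; simp) (by linarith) (by simp)
    have e1 : gs tc (P, true) = Real.log ‖zc P + Complex.I‖ - Real.log ‖zc P‖ := by
      unfold gs bs bt tc
      simp only [if_true]
      rw [zc_e2]
    have hn : (1 : ℝ) ≤ ((P.1.natAbs : ℕ) : ℝ) := by
      have : 1 ≤ P.1.natAbs := by omega
      exact_mod_cast this
    have habs : ((P.1.natAbs : ℕ) : ℝ) = |(P.1 : ℝ)| := by
      rw [Nat.cast_natAbs]; simp
    have h2 : ((P.1.natAbs : ℕ) : ℝ) ≤ ‖zc P‖ := by
      rw [habs]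
      exact Complex.abs_re_le_norm (zc P)
    have h3 : |gs tc (P, true)| ≤ 2 / ((P.1.natAbs : ℕ) : ℝ) := by
      rw [e1]
      refine hI.trans ?_
      simp only [Complex.norm_I, mul_one]
      rw [div_le_div_iff₀ (by linarith) (by linarith)]
      linarith
    rw [← sq_abs]
    refine (pow_le_pow_left₀ (abs_nonneg _) h3 2).trans (le_of_eq ?_)
    simp only
    field_simp
    norm_num
  refine (Finset.sum_le_sum h1).trans ?_
  have hinj : Set.InjOn (fun e : Bnd => e.1.1.natAbs) (X : Set Bnd) := by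
    rintro ⟨P, d⟩ he ⟨Q, d'⟩ he' hPQ
    obtain ⟨-, hd, hP2, hP1⟩ := h _ he
    obtain ⟨-, hd', hQ2, hQ1⟩ := h _ he'
    simp only at hd hP2 hP1 hd' hQ2 hQ1 hPQ
    have : P.1 = Q.1 := by omega
    have h3 : P = Q := Prod.ext this (by omega)
    rw [h3, hd, hd']
  rw [← Finset.sum_image (f := fun n : ℕ => 4 * (1 / (n : ℝ) ^ 2)) hinj]
  exact hs.sum_le_tsum _ fun n _ => by positivity

theorem stmtEN : StmtEN := by
  classical
  intro q c₂ c₁ n0 hq _
  obtain ⟨ha0, ha1⟩ := ang_le q hq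
  have hπ := Real.pi_pos
  have hπ4 : π ≤ 4 := Real.pi_le_four
  set N : Finset Bnd := (Finset.Icc (-12 : ℤ) 12 ×ˢ Finset.Icc (-12 : ℤ) 12) ×ˢ Finset.univ with hN
  set C1 : ℝ := ∑ e ∈ N, (c₂ ^ 2 + c₁ ^ 2) * gs tc e ^ 2 with hC1
  set Cx : ℝ := ∑' n : ℕ, 4 * (1 / (n : ℝ) ^ 2) with hCx
  refine ⟨C1 + c₂ ^ 2 * (48 * ang q + 98 * 11) + c₁ ^ 2 * Cx +
    c₁ ^ 2 * (48 * (2 * π - ang q) + 98 * 3), fun r hr S => ?_⟩
  have hr' : (1 : ℝ) ≤ r := by exact_mod_cast hr
  set a : ℝ := (n0 : ℝ)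
  have hkf : ∀ e, kf q c₂ c₁ e = if pA q e then c₂ else c₁ := by
    intro e
    unfold kf pA
    split_ifs <;> rfl
  -- the four parts
  set S' := S.filter (fun e => ‖zc e.1‖ ≤ (r : ℝ) / 4 + 1) with hS'
  have hterm : ∀ e ∈ S, Kf q c₂ c₁ (clp a ((r : ℝ) / 4)) e ^ 2 ≤
      if ‖zc e.1‖ ≤ (r : ℝ) / 4 + 1 then kf q c₂ c₁ e ^ 2 * gs tc e ^ 2 else 0 := by
    intro e _
    unfold Kf
    rw [mul_pow]
    by_cases h : ‖zc e.1‖ ≤ (r : ℝ) / 4 + 1
    · rw [if_pos h]
      exact mul_le_mul_of_nonneg_left (gs_clp_sq _ _ _) (sq_nonneg _)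
    · rw [if_neg h, gs_clp_zero (by positivity) e (by simpa [bs] using h)]
      simp
  refine (Finset.sum_le_sum hterm).trans ?_
  rw [← Finset.sum_filter, ← hS']
  set Sn := S'.filter (fun e => ‖zc e.1‖ < 12) with hSn
  set Sf := S'.filter (fun e => ¬ ‖zc e.1‖ < 12) with hSf
  rw [← Finset.sum_filter_add_sum_filter_not S' (fun e => ‖zc e.1‖ < 12)]
  have part1 : ∑ e ∈ Sn, kf q c₂ c₁ e ^ 2 * gs tc e ^ 2 ≤ C1 := by
    calc ∑ e ∈ Sn, kf q c₂ c₁ e ^ 2 * gs tc e ^ 2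
        ≤ ∑ e ∈ Sn, (c₂ ^ 2 + c₁ ^ 2) * gs tc e ^ 2 := by
          refine Finset.sum_le_sum fun e _ => mul_le_mul_of_nonneg_right ?_ (sq_nonneg _)
          rw [hkf]
          split_ifs
          · linarith [sq_nonneg c₁]
          · linarith [sq_nonneg c₂]
      _ ≤ C1 := by
          refine Finset.sum_le_sum_of_subset_of_nonneg ?_ fun _ _ _ =>
            mul_nonneg (add_nonneg (sq_nonneg _) (sq_nonneg _)) (sq_nonneg _)
          intro e he
          have h12 := (Finset.mem_filter.1 he).2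
          have h3 : |(e.1.1 : ℝ)| < 12 := lt_of_le_of_lt (Complex.abs_re_le_norm (zc e.1)) h12
          have h4 : |(e.1.2 : ℝ)| < 12 := lt_of_le_of_lt (Complex.abs_im_le_norm (zc e.1)) h12
          rw [abs_lt] at h3 h4
          have a1 : (-12 : ℤ) < e.1.1 := by exact_mod_cast h3.1
          have a2 : e.1.1 < (12 : ℤ) := by exact_mod_cast h3.2
          have a3 : (-12 : ℤ) < e.1.2 := by exact_mod_cast h4.1
          have a4 : e.1.2 < (12 : ℤ) := by exact_mod_cast h4.2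
          simp only [hN, Finset.mem_product, Finset.mem_Icc, Finset.mem_univ, and_true]
          omega
  have hfar : ∀ e ∈ Sf, 12 ≤ ‖zc e.1‖ ∧ ‖zc e.1‖ ≤ (r : ℝ) / 4 + 1 := by
    intro e he
    obtain ⟨h1, h2⟩ := Finset.mem_filter.1 he
    exact ⟨not_lt.1 h2, (Finset.mem_filter.1 h1).2⟩
  rw [← Finset.sum_filter_add_sum_filter_not Sf (fun e => pA q e)]
  have part2 : ∑ e ∈ Sf.filter (fun e => pA q e), kf q c₂ c₁ e ^ 2 * gs tc e ^ 2 ≤
      c₂ ^ 2 * (ang q * Real.log r + (48 * ang q + 98 * 11)) := by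
    calc ∑ e ∈ Sf.filter (fun e => pA q e), kf q c₂ c₁ e ^ 2 * gs tc e ^ 2
        = c₂ ^ 2 * ∑ e ∈ Sf.filter (fun e => pA q e), gs tc e ^ 2 := by
          rw [Finset.mul_sum]
          refine Finset.sum_congr rfl fun e he => ?_
          rw [hkf, if_pos (Finset.mem_filter.1 he).2]
      _ ≤ _ := by
          refine mul_le_mul_of_nonneg_left ?_ (sq_nonneg _)
          have := sum_sector (α := -π) (β := -π + ang q) (k := 4) (by linarith) (by norm_num)
            (Sf.filter (fun e => pA q e)) (fun e he => hfar e (Finset.mem_filter.1 he).1)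
            (fun e he => ?_) hr rfl
          · refine this.trans (le_of_eq ?_)
            ring
          · obtain ⟨h1, h2, h3⟩ := pA_imp hq (Finset.mem_filter.1 he).2
            refine ⟨?_, arg_A hq h1 h2 h3⟩
            have := Complex.neg_pi_lt_arg (zc e.1)
            have h4 : 0 ≤ 4 / ‖zc e.1‖ := div_nonneg (by norm_num) (norm_nonneg _)
            linarith
  set T := Sf.filter (fun e => ¬ pA q e) with hT
  rw [← Finset.sum_filter_add_sum_filter_not T
    (fun e => 0 ≤ e.1.2 ∨ -e.1.1 < (q : ℤ) * (-e.1.2))]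
  have hTk : ∀ e ∈ T, kf q c₂ c₁ e = c₁ := fun e he => by
    rw [hkf, if_neg (Finset.mem_filter.1 he).2]
  have part3 : ∑ e ∈ T.filter (fun e => 0 ≤ e.1.2 ∨ -e.1.1 < (q : ℤ) * (-e.1.2)),
      kf q c₂ c₁ e ^ 2 * gs tc e ^ 2 ≤
      c₁ ^ 2 * ((2 * π - ang q) * Real.log r + (48 * (2 * π - ang q) + 98 * 3)) := by
    calc ∑ e ∈ T.filter (fun e => 0 ≤ e.1.2 ∨ -e.1.1 < (q : ℤ) * (-e.1.2)),
          kf q c₂ c₁ e ^ 2 * gs tc e ^ 2
        = c₁ ^ 2 * ∑ e ∈ T.filter (fun e => 0 ≤ e.1.2 ∨ -e.1.1 < (q : ℤ) * (-e.1.2)),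
          gs tc e ^ 2 := by
          rw [Finset.mul_sum]
          refine Finset.sum_congr rfl fun e he => ?_
          rw [hTk e (Finset.mem_filter.1 he).1]
      _ ≤ _ := by
          refine mul_le_mul_of_nonneg_left ?_ (sq_nonneg _)
          have := sum_sector (α := -π + ang q) (β := π) (k := 0) (by linarith) le_rfl
            (T.filter (fun e => 0 ≤ e.1.2 ∨ -e.1.1 < (q : ℤ) * (-e.1.2)))
            (fun e he => hfar e (Finset.mem_filter.1 (Finset.mem_filter.1 he).1).1)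
            (fun e he => ?_) hr rfl
          · refine this.trans (le_of_eq ?_)
            ring
          · have h1 := arg_B hq (Finset.mem_filter.1 he).2
            have h2 := Complex.arg_le_pi (zc e.1)
            simp only [zero_div, add_zero]
            exact ⟨h1, h2⟩
  have part4 : ∑ e ∈ T.filter (fun e => ¬ (0 ≤ e.1.2 ∨ -e.1.1 < (q : ℤ) * (-e.1.2))),
      kf q c₂ c₁ e ^ 2 * gs tc e ^ 2 ≤ c₁ ^ 2 * Cx := by
    calc ∑ e ∈ T.filter (fun e => ¬ (0 ≤ e.1.2 ∨ -e.1.1 < (q : ℤ) * (-e.1.2))),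
          kf q c₂ c₁ e ^ 2 * gs tc e ^ 2
        = c₁ ^ 2 * ∑ e ∈ T.filter (fun e => ¬ (0 ≤ e.1.2 ∨ -e.1.1 < (q : ℤ) * (-e.1.2))),
          gs tc e ^ 2 := by
          rw [Finset.mul_sum]
          refine Finset.sum_congr rfl fun e he => ?_
          rw [hTk e (Finset.mem_filter.1 he).1]
      _ ≤ _ := by
          refine mul_le_mul_of_nonneg_left (sum_exc _ fun e he => ?_) (sq_nonneg _)
          obtain ⟨h1, h2⟩ := Finset.mem_filter.1 he
          obtain ⟨h3, h4⟩ := Finset.mem_filter.1 h1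
          refine ⟨(hfar e h3).1, ?_⟩
          rcases not_pA_imp hq h4 with h5 | h5
          · exact absurd h5 h2
          · exact h5
  have e1 : (c₂ ^ 2 * ang q + c₁ ^ 2 * (2 * π - ang q)) * Real.log r +
      (C1 + c₂ ^ 2 * (48 * ang q + 98 * 11) + c₁ ^ 2 * Cx +
        c₁ ^ 2 * (48 * (2 * π - ang q) + 98 * 3)) =
      C1 + (c₂ ^ 2 * (ang q * Real.log r + (48 * ang q + 98 * 11)) +
        (c₁ ^ 2 * ((2 * π - ang q) * Real.log r + (48 * (2 * π - ang q) + 98 * 3)) +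
          c₁ ^ 2 * Cx)) := by ring
  rw [e1]
  exact add_le_add part1 (add_le_add part2 (add_le_add part3 part4))

end Vale.Agent.P159.T1.H775
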