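import Vale.Agent.P159.T1.D.Defs

/-! # P159, T1, stage 2, row S.HARM: discrete harmonic functions on finite sets of faces -/

open Finset
open Vale.Agent.P159.T1.D

namespace Vale.Agent.P159.T1.H775

/-- the discrete Laplacian -/
def lap (v : Z2 → ℝ) (p : Z2) : ℝ :=
  v (p.1 + 1, p.2) + v (p.1 - 1, p.2) + v (p.1, p.2 + 1) + v (p.1, p.2 - 1) - 4 * v p

theorem lap_add (v w : Z2 → ℝ) (p : Z2) : lap (fun q => v q + w q) p = lap v p + lap w p := by
  simp only [lap]; ring

theorem lap_sub (v w : Z2 → ℝ) (p : Z2) : lap (fun q => v q - w q) p = lap v p - lap w p := by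
  simp only [lap]; ring

theorem lap_smul (c : ℝ) (v : Z2 → ℝ) (p : Z2) : lap (fun q => c * v q) p = c * lap v p := by
  simp only [lap]; ring

theorem lap_neg (v : Z2 → ℝ) (p : Z2) : lap (fun q => -v q) p = -lap v p := by
  simp only [lap]; ring

theorem lap_const (c : ℝ) (p : Z2) : lap (fun _ => c) p = 0 := by
  simp only [lap]; ring

/-- generic maximum principle -/
theorem max_aux (H : Finset Z2) (g : Z2 → ℝ)
    (h : ∀ p ∈ H, 0 < g p → (∀ q ∈ H, g q ≤ g p) →
      (p.1 + 1, p.2) ∈ H ∧ g p ≤ g (p.1 + 1, p.2)) : ∀ p ∈ H, g p ≤ 0 := by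
  classical
  by_contra hc
  push Not at hc
  obtain ⟨p0, hp0, hg0⟩ := hc
  obtain ⟨p1, hp1, hmax⟩ := H.exists_max_image g ⟨p0, hp0⟩
  have hpos : 0 < g p1 := hg0.trans_le (hmax p0 hp0)
  have hne : (H.filter fun p => g p = g p1).Nonempty := ⟨p1, by simp [hp1]⟩
  obtain ⟨p2, hp2, hmax2⟩ := (H.filter fun p => g p = g p1).exists_max_image (fun p => p.1) hne
  obtain ⟨hp2H, hp2g⟩ := Finset.mem_filter.1 hp2
  obtain ⟨h1, h2⟩ := h p2 hp2H (by rw [hp2g]; exact hpos) (by rw [hp2g]; exact hmax)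
  have h3 : g (p2.1 + 1, p2.2) = g p1 := le_antisymm (hmax _ h1) (hp2g ▸ h2)
  have h4 := hmax2 (p2.1 + 1, p2.2) (by simp [h1, h3])
  simp at h4

/-- maximum principle: a subharmonic function on `R` which is at most `M` on the neighbours of `R`
outside `R` is at most `M` on `R` -/
theorem le_of_sub {R : Finset Z2} {v : Z2 → ℝ} {M : ℝ} (hv : ∀ p ∈ R, 0 ≤ lap v p)
    (hM : ∀ p, p ∉ R → v p ≤ M) : ∀ p, v p ≤ M := by
  intro p
  by_cases hp : p ∈ R
  · have h : v p - M ≤ 0 := by
      refine max_aux R (fun q => v q - M) ?_ p hp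
      intro q hq hq0 hmax
      have key : ∀ q', v q' ≤ v q := by
        intro q'
        by_cases h : q' ∈ R
        · have := hmax q' h; linarith
        · have := hM q' h; linarith
      have h0 := hv q hq
      simp only [lap] at h0
      have h1 := key (q.1 + 1, q.2)
      have h2 := key (q.1 - 1, q.2)
      have h3 := key (q.1, q.2 + 1)
      have h4 := key (q.1, q.2 - 1)
      have h5 : v q ≤ v (q.1 + 1, q.2) := by linarith
      refine ⟨?_, by linarith⟩
      by_contra h6
      have := hM _ h6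
      linarith
    linarith
  · exact hM p hp

theorem ge_of_sup {R : Finset Z2} {v : Z2 → ℝ} {M : ℝ} (hv : ∀ p ∈ R, lap v p ≤ 0)
    (hM : ∀ p, p ∉ R → M ≤ v p) : ∀ p, M ≤ v p := by
  intro p
  have := le_of_sub (R := R) (v := fun q => -v q) (M := -M)
    (fun p hp => by rw [lap_neg]; have := hv p hp; linarith)
    (fun p hp => by have := hM p hp; linarith) p
  linarith

/-- comparison of a super- and a subsolution -/
theorem le_of_le {R : Finset Z2} {v w : Z2 → ℝ} (hv : ∀ p ∈ R, lap w p ≤ lap v p)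
    (hM : ∀ p, p ∉ R → v p ≤ w p) : ∀ p, v p ≤ w p := by
  intro p
  have := le_of_sub (R := R) (v := fun q => v q - w q) (M := 0)
    (fun p hp => by rw [lap_sub]; have := hv p hp; linarith)
    (fun p hp => by have := hM p hp; linarith) p
  linarith

theorem abs_le_of_harm {R : Finset Z2} {v : Z2 → ℝ} {M : ℝ} (hv : ∀ p ∈ R, lap v p = 0)
    (hM : ∀ p, p ∉ R → |v p| ≤ M) : ∀ p, |v p| ≤ M := by
  intro p
  rw [abs_le]
  exact ⟨ge_of_sup (fun p hp => (hv p hp).le) (fun p hp => (abs_le.1 (hM p hp)).1) p,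
    le_of_sub (fun p hp => (hv p hp).ge) (fun p hp => (abs_le.1 (hM p hp)).2) p⟩

/-- extension by zero -/
def ext0 (R : Finset Z2) (x : R → ℝ) (p : Z2) : ℝ := if h : p ∈ R then x ⟨p, h⟩ else 0

/-- **the Dirichlet problem**: given charges on `R` and boundary values off `R` -/
theorem exists_harm (R : Finset Z2) (g t : Z2 → ℝ) :
    ∃ v : Z2 → ℝ, (∀ p, p ∉ R → v p = t p) ∧ ∀ p ∈ R, lap v p = g p := by
  classical
  let T : (R → ℝ) →ₗ[ℝ] (R → ℝ) :=
    { toFun := fun x p => lap (ext0 R x) p.1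
      map_add' := by
        intro x y; funext p
        rw [Pi.add_apply, ← lap_add]
        congr 1; funext q; simp only [ext0]; split <;> simp
      map_smul' := by
        intro c x; funext p
        rw [Pi.smul_apply, RingHom.id_apply, smul_eq_mul, ← lap_smul]
        congr 1; funext q; simp only [ext0]; split <;> simp }
  have hinj : Function.Injective T := by
    rw [injective_iff_map_eq_zero]
    intro x hx
    have h1 : ∀ p ∈ R, lap (ext0 R x) p = 0 := fun p hp => congrFun hx ⟨p, hp⟩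
    have h2 := abs_le_of_harm (M := 0) h1 (fun p hp => by simp [ext0, hp])
    funext p
    have := h2 p.1
    simp only [ext0, p.2, dite_true, Subtype.coe_eta] at this
    simpa using this
  have hsur : Function.Surjective T := LinearMap.injective_iff_surjective.1 hinj
  obtain ⟨x, hx⟩ := hsur fun p => g p.1 - lap (fun q => if q ∈ R then 0 else t q) p.1
  refine ⟨fun q => ext0 R x q + (if q ∈ R then 0 else t q), ?_, ?_⟩
  · intro p hp; simp [ext0, hp]
  · intro p hp
    rw [lap_add]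
    have := congrFun hx ⟨p, hp⟩
    simp only [T, LinearMap.coe_mk, AddHom.coe_mk] at this
    rw [this]; ring

/-- uniqueness -/
theorem harm_unique {R : Finset Z2} {v w : Z2 → ℝ} (hv : ∀ p ∈ R, lap v p = lap w p)
    (hM : ∀ p, p ∉ R → v p = w p) : v = w := by
  funext p
  exact le_antisymm (le_of_le (R := R) (fun p hp => (hv p hp).ge) (fun p hp => (hM p hp).le) p)
    (le_of_le (R := R) (fun p hp => (hv p hp).le) (fun p hp => (hM p hp).ge) p)

/-! ### gradient bounds -/

/-- the barrier -/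
noncomputable def bar (m : ℕ) (k j : ℤ) : ℝ :=
  ((2 * k - 1) * m - (k : ℝ) ^ 2 + k + (j : ℝ) ^ 2) / (m : ℝ) ^ 2

/-- half box `1 ≤ k ≤ m`, `|j| ≤ m` -/
noncomputable def hbox (m : ℕ) : Finset Z2 := Finset.Icc (1 : ℤ) m ×ˢ Finset.Icc (-(m : ℤ)) m

theorem mem_hbox {m : ℕ} {p : Z2} :
    p ∈ hbox m ↔ (1 ≤ p.1 ∧ p.1 ≤ m) ∧ (-(m : ℤ) ≤ p.2 ∧ p.2 ≤ m) := by
  simp [hbox]

/-- odd functions: gradient at the line of symmetry -/
theorem odd_le {m : ℕ} (hm : 1 ≤ m) {w : Z2 → ℝ} {S : ℝ} (hS : 0 ≤ S)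
    (hodd : ∀ j, w (0, j) = -w (1, j))
    (hw : ∀ p ∈ hbox m, p.1 < m → |p.2| < m → lap w p = 0)
    (hb : ∀ p ∈ hbox m, w p ≤ S) : w (1, 0) ≤ S / m := by
  have hm0 : (0 : ℝ) < m := by exact_mod_cast hm
  have key : ∀ p ∈ hbox m, w p - S * bar m p.1 p.2 ≤ 0 := by
    refine max_aux _ _ ?_
    intro p hp h0 hmax
    simp only at h0 hmax ⊢
    obtain ⟨⟨h1, h2⟩, ⟨h3, h4⟩⟩ := mem_hbox.1 hp
    have r1 : (1 : ℝ) ≤ p.1 := by exact_mod_cast h1
    have r2 : (p.1 : ℝ) ≤ m := by exact_mod_cast h2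
    have rm : (1 : ℝ) ≤ m := by exact_mod_cast hm
    -- on the boundary the barrier is at least one
    have hbd : ¬ (1 ≤ bar m p.1 p.2) := by
      intro hbar
      have := hb p hp
      nlinarith
    have hlt1 : p.1 < m := by
      rcases lt_or_eq_of_le h2 with h | h
      · exact h
      · exfalso; apply hbd
        have e : (p.1 : ℝ) = m := by exact_mod_cast h
        rw [bar, e, le_div_iff₀ (by positivity)]
        nlinarith [sq_nonneg (p.2 : ℝ)]
    have hlt2 : |p.2| < m := by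
      have : |p.2| ≤ m := abs_le.2 ⟨h3, h4⟩
      rcases lt_or_eq_of_le this with h | h
      · exact h
      · exfalso; apply hbd
        have e : (p.2 : ℝ) ^ 2 = (m : ℝ) ^ 2 := by
          have : |(p.2 : ℝ)| = m := by exact_mod_cast h
          rw [← sq_abs, this]
        rw [bar, e, le_div_iff₀ (by positivity)]
        nlinarith
    have hlap := hw p hp hlt1 hlt2
    simp only [lap] at hlap
    have hlt2' := abs_lt.1 hlt2
    have m1 : (p.1 + 1, p.2) ∈ hbox m := mem_hbox.2 ⟨⟨by simp; omega, by simp; omega⟩, h3, h4⟩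
    have m3 : (p.1, p.2 + 1) ∈ hbox m := mem_hbox.2 ⟨⟨h1, h2⟩, by simp; omega, by simp; omega⟩
    have m4 : (p.1, p.2 - 1) ∈ hbox m := mem_hbox.2 ⟨⟨h1, h2⟩, by simp; omega, by simp; omega⟩
    have e1 := hmax _ m1
    have e3 := hmax _ m3
    have e4 := hmax _ m4
    simp only at e1 e3 e4
    -- the barrier is harmonic
    have hbarlap : bar m (p.1 + 1) p.2 + bar m (p.1 - 1) p.2 + bar m p.1 (p.2 + 1) +
        bar m p.1 (p.2 - 1) - 4 * bar m p.1 p.2 = 0 := by
      simp only [bar]; push_cast; field_simp; ring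
    have e2 : w (p.1 - 1, p.2) - S * bar m (p.1 - 1) p.2 ≤ w p - S * bar m p.1 p.2 := by
      rcases lt_or_eq_of_le h1 with h | h
      · have m2 : (p.1 - 1, p.2) ∈ hbox m :=
          mem_hbox.2 ⟨⟨by simp; omega, by simp; omega⟩, h3, h4⟩
        exact hmax _ m2
      · have hp1 : p.1 = 1 := h.symm
        have hpe : p = (1, p.2) := Prod.ext hp1 rfl
        have hw0 : w (p.1 - 1, p.2) = -w p := by
          rw [hp1, show ((1 : ℤ) - 1) = 0 by norm_num, hodd, ← hpe]
        have hb2 : bar m (p.1 - 1) p.2 + bar m p.1 p.2 = 2 * (p.2 : ℝ) ^ 2 / (m : ℝ) ^ 2 := by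
          simp only [bar, hp1]; push_cast; field_simp; ring
        have hb3 : 0 ≤ bar m (p.1 - 1) p.2 + bar m p.1 p.2 := by rw [hb2]; positivity
        rw [hw0]
        nlinarith
    refine ⟨m1, ?_⟩
    have hS' : S * (bar m (p.1 + 1) p.2 + bar m (p.1 - 1) p.2 + bar m p.1 (p.2 + 1) +
        bar m p.1 (p.2 - 1) - 4 * bar m p.1 p.2) = 0 := by rw [hbarlap, mul_zero]
    linarith
  have h := key (1, 0) (mem_hbox.2 ⟨⟨le_refl _, by simp; omega⟩, by simp, by simp⟩)
  have hb1 : bar m 1 0 = 1 / m := by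
    simp only [bar]; push_cast; field_simp; ring
  simp only [hb1] at h
  have : S * (1 / (m : ℝ)) = S / m := by ring
  linarith

/-- the box of radius `m` about `f` -/
def InBox (f : Z2) (m : ℕ) (p : Z2) : Prop := |p.1 - f.1| ≤ m ∧ |p.2 - f.2| ≤ m

theorem InBox.mono {f : Z2} {m m' : ℕ} (h : m ≤ m') {p : Z2} (hp : InBox f m p) : InBox f m' p :=
  ⟨hp.1.trans (by exact_mod_cast h), hp.2.trans (by exact_mod_cast h)⟩

theorem InBox.trans {f g : Z2} {m k : ℕ} (hg : InBox f k g) {p : Z2} (hp : InBox g m p) :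
    InBox f (m + k) p := by
  obtain ⟨h1, h2⟩ := hg
  obtain ⟨h3, h4⟩ := hp
  rw [abs_le] at h1 h2 h3 h4
  constructor <;> rw [abs_le] <;> push_cast <;> constructor <;> omega

/-- one sided gradient bound in the first direction -/
theorem grad_le_aux {v : Z2 → ℝ} {f : Z2} {m : ℕ} {D : ℝ} (hm : 1 ≤ m)
    (hv : ∀ p, InBox f m p → lap v p = 0)
    (hb : ∀ p q, InBox f m p → InBox f m q → v p - v q ≤ D) :
    v (f.1 + 1, f.2) - v f ≤ D / m := by
  have hD : 0 ≤ D := by
    have := hb f f ⟨by simp, by simp⟩ ⟨by simp, by simp⟩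
    simpa using this
  have h := odd_le (m := m) hm (w := fun p => v (f.1 + p.1, f.2 + p.2) -
    v (f.1 + 1 - p.1, f.2 + p.2)) (S := D) hD ?_ ?_ ?_
  · simpa using h
  · intro j
    simp only [add_zero, sub_zero, add_sub_cancel_right]
    ring
  · intro p hp h1 h2
    obtain ⟨⟨h3, h4⟩, h5, h6⟩ := mem_hbox.1 hp
    have a1 := hv (f.1 + p.1, f.2 + p.2) (by
      constructor <;> simp only [add_sub_cancel_left]
      · rw [abs_le]; omega
      · exact h2.le)
    have a2 := hv (f.1 + 1 - p.1, f.2 + p.2) (by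
      constructor
      · simp only; rw [abs_le]; omega
      · simp only [add_sub_cancel_left]; exact h2.le)
    simp only [lap] at a1 a2 ⊢
    rw [show f.1 + (p.1 + 1) = f.1 + p.1 + 1 by ring, show f.1 + (p.1 - 1) = f.1 + p.1 - 1 by ring,
      show f.2 + (p.2 + 1) = f.2 + p.2 + 1 by ring, show f.2 + (p.2 - 1) = f.2 + p.2 - 1 by ring,
      show f.1 + 1 - (p.1 + 1) = f.1 + 1 - p.1 - 1 by ring,
      show f.1 + 1 - (p.1 - 1) = f.1 + 1 - p.1 + 1 by ring]
    linarith
  · intro p hp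
    obtain ⟨⟨h3, h4⟩, h5, h6⟩ := mem_hbox.1 hp
    refine hb _ _ ?_ ?_
    · constructor <;> simp only [add_sub_cancel_left] <;> rw [abs_le] <;> omega
    · constructor
      · simp only; rw [abs_le]; omega
      · simp only [add_sub_cancel_left]; rw [abs_le]; omega

/-- a unit step, in one of the two directions -/
def stp (d : Bool) (f : Z2) : Z2 := if d then (f.1, f.2 + 1) else (f.1 + 1, f.2)

/-- **gradient bound** -/
theorem grad_le {v : Z2 → ℝ} {f : Z2} {m : ℕ} {D : ℝ} (hm : 1 ≤ m)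
    (hv : ∀ p, InBox f m p → lap v p = 0)
    (hb : ∀ p q, InBox f m p → InBox f m q → v p - v q ≤ D) (d : Bool) :
    |v (stp d f) - v f| ≤ D / m := by
  have hneg : ∀ p, InBox f m p → lap (fun q => -v q) p = 0 := fun p hp => by
    rw [lap_neg, hv p hp, neg_zero]
  have hbneg : ∀ p q, InBox f m p → InBox f m q → -v p - -v q ≤ D := fun p q hp hq => by
    have := hb q p hq hp; linarith
  rw [abs_le]
  cases d with
  | false =>
    have h1 := grad_le_aux hm hv hb
    have h2 := grad_le_aux hm hneg hbneg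
    simp only [stp, Bool.false_eq_true, if_false]
    constructor <;> linarith
  | true =>
    -- exchange the two coordinates
    have sw : ∀ v : Z2 → ℝ, (∀ p, InBox f m p → lap v p = 0) →
        (∀ p q, InBox f m p → InBox f m q → v p - v q ≤ D) → v (f.1, f.2 + 1) - v f ≤ D / m := by
      intro v hv hb
      have := grad_le_aux (v := fun p => v (p.2, p.1)) (f := (f.2, f.1)) (D := D) hm
        (fun p hp => by
          have := hv (p.2, p.1) ⟨hp.2, hp.1⟩
          simp only [lap] at this ⊢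
          linarith)
        (fun p q hp hq => hb (p.2, p.1) (q.2, q.1) ⟨hp.2, hp.1⟩ ⟨hq.2, hq.1⟩)
      simpa using this
    have h1 := sw v hv hb
    have h2 := sw _ hneg hbneg
    simp only [stp, if_true]
    constructor <;> linarith

/-- **second differences** -/
theorem grad2_le {v : Z2 → ℝ} {f : Z2} {m : ℕ} {D : ℝ} (hm : 1 ≤ m)
    (hv : ∀ p, InBox f (2 * m + 1) p → lap v p = 0)
    (hb : ∀ p q, InBox f (2 * m + 1) p → InBox f (2 * m + 1) q → v p - v q ≤ D) (d d' : Bool) :
    |v (stp d (stp d' f)) - v (stp d' f) - (v (stp d f) - v f)| ≤ 2 * D / m ^ 2 := by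
  have hm0 : (0 : ℝ) < m := by exact_mod_cast hm
  have hst : ∀ p, InBox f m p → InBox f (m + 1) (stp d p) := by
    rintro p ⟨h1, h2⟩
    rw [abs_le] at h1 h2
    cases d <;> simp only [stp, Bool.false_eq_true, if_false, if_true] <;> constructor <;>
      simp only <;> rw [abs_le] <;> push_cast <;> constructor <;> omega
  have h := grad_le (v := fun p => v (stp d p) - v p) (f := f) (m := m) (D := 2 * D / m) hm
    (fun p hp => by
      have h1 := hv p (hp.mono (by omega))
      have h2 := hv (stp d p) ((hst p hp).mono (by omega))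
      cases d <;> simp only [stp, Bool.false_eq_true, if_false, if_true, lap] at h1 h2 ⊢
      · rw [show p.1 - 1 + 1 = p.1 + 1 - 1 by ring]
        linarith
      · rw [show p.2 - 1 + 1 = p.2 + 1 - 1 by ring]
        linarith)
    (fun p q hp hq => by
      have key : ∀ p, InBox f m p → |v (stp d p) - v p| ≤ D / m := fun p hp =>
        grad_le hm (fun q hq => hv q ((hp.trans hq).mono (by omega)))
          (fun q q' hq hq' => hb q q' ((hp.trans hq).mono (by omega))
            ((hp.trans hq').mono (by omega))) d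
      have h1 := (abs_le.1 (key p hp)).2
      have h2 := (abs_le.1 (key q hq)).1
      have : 2 * D / (m : ℝ) = D / m + D / m := by ring
      linarith) d'
  have e : 2 * D / (m : ℝ) / m = 2 * D / m ^ 2 := by field_simp
  rw [← e]
  exact h

/-! ### summation by parts -/

/-- minus the divergence -/
def dvg (B : Bnd → ℝ) (f : Z2) : ℝ :=
  B (f, false) - B ((f.1, f.2 + 1), false) + B ((f.1 + 1, f.2), true) - B (f, true)

theorem dvg_dr (v : Z2 → ℝ) (f : Z2) : dvg (dr v) f = -lap v f := by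
  simp only [dvg, dr, lf, rt, lap, Bool.false_eq_true, if_false, if_true, add_sub_cancel_right]
  ring

theorem mem_sides_iff (f : Z2) (e : Bnd) : e ∈ sides f ↔ lf e = f ∨ rt e = f := by
  obtain ⟨⟨a, b⟩, d⟩ := e
  obtain ⟨x, y⟩ := f
  cases d <;> simp [sides, lf, rt, Prod.ext_iff] <;> omega

theorem parts {U : Finset Z2} {S : Finset Bnd} (hS : bd U ⊆ S) (B : Bnd → ℝ) {w : Z2 → ℝ}
    (hw : ∀ f, f ∉ U → w f = 0) : ∑ e ∈ S, B e * dr w e = ∑ f ∈ U, dvg B f * w f := by
  classical
  have h1 : ∀ g : Z2, w g = ∑ f ∈ U, if g = f then w f else 0 := by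
    intro g
    rw [Finset.sum_ite_eq]
    split_ifs with h
    · rfl
    · exact hw g h
  have h2 : ∀ e, B e * dr w e = ∑ f ∈ U, w f *
      ((if lf e = f then B e else 0) - if rt e = f then B e else 0) := by
    intro e
    rw [dr, h1 (lf e), h1 (rt e), ← Finset.sum_sub_distrib, Finset.mul_sum]
    refine Finset.sum_congr rfl fun f _ => ?_
    split_ifs <;> ring
  simp_rw [h2]
  rw [Finset.sum_comm]
  refine Finset.sum_congr rfl fun f hf => ?_
  rw [← Finset.mul_sum, mul_comm]
  congr 1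
  have hsub : sides f ⊆ S := fun e he => hS (Finset.mem_biUnion.2 ⟨f, hf, he⟩)
  rw [← Finset.sum_subset hsub]
  · obtain ⟨x, y⟩ := f
    simp only [sides, dvg]
    rw [Finset.sum_insert, Finset.sum_insert, Finset.sum_insert, Finset.sum_singleton]
    · simp [lf, rt]; ring
    · simp
    · simp
    · simp
  · intro e _ he
    rw [mem_sides_iff] at he
    push Not at he
    simp [he.1, he.2]

/-- a harmonic function is orthogonal to the functions supported in its domain -/
theorem orth {U : Finset Z2} {S : Finset Bnd} (hS : bd U ⊆ S) {v w : Z2 → ℝ}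
    (hv : ∀ f ∈ U, lap v f = 0) (hw : ∀ f, f ∉ U → w f = 0) : ∑ e ∈ S, dr v e * dr w e = 0 := by
  rw [parts hS _ hw]
  refine Finset.sum_eq_zero fun f hf => ?_
  rw [dvg_dr, hv f hf]; ring

/-- **Caccioppoli inequality** for `v` harmonic on `U`, with `χ² (v - t) = 0` off `U` -/
theorem cacc {U : Finset Z2} {S : Finset Bnd} (hS : bd U ⊆ S) {v t χ : Z2 → ℝ}
    (hv : ∀ f ∈ U, lap v f = 0) (hw : ∀ f, f ∉ U → χ f ^ 2 * (v f - t f) = 0) :
    ∑ e ∈ S, (χ (lf e) ^ 2 + χ (rt e) ^ 2) / 2 * dr v e ^ 2 ≤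
      2 * ∑ e ∈ S, (χ (lf e) ^ 2 + χ (rt e) ^ 2) / 2 * dr t e ^ 2 +
        2 * ∑ e ∈ S, (v (lf e) - t (lf e) + (v (rt e) - t (rt e))) ^ 2 * dr χ e ^ 2 := by
  have h := orth hS hv (w := fun f => χ f ^ 2 * (v f - t f)) hw
  have key : ∀ e, (χ (lf e) ^ 2 + χ (rt e) ^ 2) / 2 * dr v e ^ 2 -
      (2 * ((χ (lf e) ^ 2 + χ (rt e) ^ 2) / 2 * dr t e ^ 2) +
        2 * ((v (lf e) - t (lf e) + (v (rt e) - t (rt e))) ^ 2 * dr χ e ^ 2)) ≤
      2 * (dr v e * dr (fun f => χ f ^ 2 * (v f - t f)) e) := by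
    intro e
    simp only [dr]
    generalize χ (lf e) = a
    generalize χ (rt e) = b
    generalize v (lf e) = x
    generalize v (rt e) = y
    generalize t (lf e) = s
    generalize t (rt e) = r
    nlinarith [sq_nonneg (a * ((x - y) - 2 * (s - r))), sq_nonneg (b * ((x - y) - 2 * (s - r))),
      sq_nonneg ((a + b) * (x - y) + 4 * ((x - s + (y - r)) * (a - b))),
      mul_nonneg (sq_nonneg (a - b)) (sq_nonneg (x - y))]
  have h2 := Finset.sum_le_sum fun e (_ : e ∈ S) => key e
  rw [← Finset.mul_sum, h] at h2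
  simp only [Finset.sum_sub_distrib, Finset.sum_add_distrib, ← Finset.mul_sum] at h2
  linarith

end Vale.Agent.P159.T1.H775
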