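import Mathlib.Algebra.Order.Chebyshev
import Vale.Agent.P159.T1.H775.Harm

/-! # P159, T1, stage 2, row S.CL: Courant-Lebesgue lemma for discrete harmonic functions -/

open Finset
open Vale.Agent.P159.T1.D

namespace Vale.Agent.P159.T1.H775

/-! ### one dimensional facts -/

theorem var_le (g : ℤ → ℝ) {a b : ℤ} {x y : ℤ} (hx : a ≤ x) (hy : y ≤ b) (hxy : x ≤ y) :
    |g y - g x| ≤ ∑ i ∈ Finset.Ico a b, |g (i + 1) - g i| := by
  have h1 : |g y - g x| ≤ ∑ i ∈ Finset.Ico x y, |g (i + 1) - g i| := by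
    induction y, hxy using Int.leInduction with
    | base => simp
    | succ n hn ih =>
      rw [← Finset.insert_Ico_right_eq_Ico_add_one (by omega), Finset.sum_insert (by simp)]
      have := ih (by omega)
      have h2 : g (n + 1) - g x = (g (n + 1) - g n) + (g n - g x) := by ring
      rw [h2]
      exact (abs_add_le _ _).trans (by linarith)
  refine h1.trans (Finset.sum_le_sum_of_subset_of_nonneg ?_ fun _ _ _ => abs_nonneg _)
  intro i hi
  rw [Finset.mem_Ico] at hi ⊢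
  omega

theorem var_le' (g : ℤ → ℝ) {a b : ℤ} {x y : ℤ} (hx : a ≤ x) (hxb : x ≤ b) (hy : a ≤ y)
    (hyb : y ≤ b) : |g x - g y| ≤ ∑ i ∈ Finset.Ico a b, |g (i + 1) - g i| := by
  rcases le_total x y with h | h
  · rw [abs_sub_comm]; exact var_le g hx hyb h
  · exact var_le g hy hxb h

theorem var_sq (g : ℤ → ℝ) (k : ℕ) :
    (∑ i ∈ Finset.Ico (-(k : ℤ)) k, |g (i + 1) - g i|) ^ 2 ≤
      2 * k * ∑ i ∈ Finset.Ico (-(k : ℤ)) k, (g (i + 1) - g i) ^ 2 := by
  have h := sq_sum_le_card_mul_sum_sq (s := Finset.Ico (-(k : ℤ)) k)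
    (f := fun i => |g (i + 1) - g i|)
  simp only [sq_abs, Int.card_Ico] at h
  have e : (((k : ℤ) - -(k : ℤ)).toNat : ℝ) = 2 * k := by
    have : ((k : ℤ) - -(k : ℤ)).toNat = 2 * k := by omega
    rw [this]; push_cast; ring
  rw [e] at h
  exact h

/-! ### rings -/

/-- total variation of `v` along the four sides of the square of radius `k` about `f` -/
noncomputable def rvar (v : Z2 → ℝ) (f : Z2) (k : ℕ) : ℝ :=
  ∑ i ∈ Finset.Ico (-(k : ℤ)) k, |v (f.1 + (i + 1), f.2 + k) - v (f.1 + i, f.2 + k)| +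
  ∑ i ∈ Finset.Ico (-(k : ℤ)) k, |v (f.1 + (i + 1), f.2 - k) - v (f.1 + i, f.2 - k)| +
  ∑ i ∈ Finset.Ico (-(k : ℤ)) k, |v (f.1 + k, f.2 + (i + 1)) - v (f.1 + k, f.2 + i)| +
  ∑ i ∈ Finset.Ico (-(k : ℤ)) k, |v (f.1 - k, f.2 + (i + 1)) - v (f.1 - k, f.2 + i)|

/-- energy of `v` along the four sides -/
noncomputable def ren (v : Z2 → ℝ) (f : Z2) (k : ℕ) : ℝ :=
  ∑ i ∈ Finset.Ico (-(k : ℤ)) k, (v (f.1 + (i + 1), f.2 + k) - v (f.1 + i, f.2 + k)) ^ 2 +
  ∑ i ∈ Finset.Ico (-(k : ℤ)) k, (v (f.1 + (i + 1), f.2 - k) - v (f.1 + i, f.2 - k)) ^ 2 +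
  ∑ i ∈ Finset.Ico (-(k : ℤ)) k, (v (f.1 + k, f.2 + (i + 1)) - v (f.1 + k, f.2 + i)) ^ 2 +
  ∑ i ∈ Finset.Ico (-(k : ℤ)) k, (v (f.1 - k, f.2 + (i + 1)) - v (f.1 - k, f.2 + i)) ^ 2

theorem ren_nonneg (v : Z2 → ℝ) (f : Z2) (k : ℕ) : 0 ≤ ren v f k := by
  unfold ren; positivity

theorem rvar_sq (v : Z2 → ℝ) (f : Z2) (k : ℕ) : rvar v f k ^ 2 ≤ 8 * k * ren v f k := by
  have h1 := var_sq (fun i => v (f.1 + i, f.2 + k)) k
  have h2 := var_sq (fun i => v (f.1 + i, f.2 - k)) k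
  have h3 := var_sq (fun i => v (f.1 + k, f.2 + i)) k
  have h4 := var_sq (fun i => v (f.1 - k, f.2 + i)) k
  unfold rvar ren
  generalize ∑ i ∈ Finset.Ico (-(k : ℤ)) k, |v (f.1 + (i + 1), f.2 + k) - v (f.1 + i, f.2 + k)| = a
    at *
  generalize ∑ i ∈ Finset.Ico (-(k : ℤ)) k, |v (f.1 + (i + 1), f.2 - k) - v (f.1 + i, f.2 - k)| = b
    at *
  generalize ∑ i ∈ Finset.Ico (-(k : ℤ)) k, |v (f.1 + k, f.2 + (i + 1)) - v (f.1 + k, f.2 + i)| = c
    at *
  generalize ∑ i ∈ Finset.Ico (-(k : ℤ)) k, |v (f.1 - k, f.2 + (i + 1)) - v (f.1 - k, f.2 + i)| = d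
    at *
  nlinarith [sq_nonneg (a - b), sq_nonneg (a - c), sq_nonneg (a - d), sq_nonneg (b - c),
    sq_nonneg (b - d), sq_nonneg (c - d)]

/-- the square ring of radius `k` -/
def OnRing (f : Z2) (k : ℕ) (p : Z2) : Prop :=
  InBox f k p ∧ (|p.1 - f.1| = k ∨ |p.2 - f.2| = k)

theorem ring_corner {v : Z2 → ℝ} {f : Z2} {k : ℕ} {p : Z2} (hp : OnRing f k p) :
    |v p - v (f.1 + k, f.2 + k)| ≤ rvar v f k := by
  obtain ⟨⟨h1, h2⟩, h3⟩ := hp
  have g1 := abs_le.1 h1
  have g2 := abs_le.1 h2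
  have hT := fun x y h1 h2 h3 h4 => var_le' (fun i => v (f.1 + i, f.2 + k)) (a := -(k : ℤ))
    (b := k) (x := x) (y := y) h1 h2 h3 h4
  have hB := fun x y h1 h2 h3 h4 => var_le' (fun i => v (f.1 + i, f.2 - k)) (a := -(k : ℤ))
    (b := k) (x := x) (y := y) h1 h2 h3 h4
  have hR := fun x y h1 h2 h3 h4 => var_le' (fun i => v (f.1 + k, f.2 + i)) (a := -(k : ℤ))
    (b := k) (x := x) (y := y) h1 h2 h3 h4
  have hL := fun x y h1 h2 h3 h4 => var_le' (fun i => v (f.1 - k, f.2 + i)) (a := -(k : ℤ))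
    (b := k) (x := x) (y := y) h1 h2 h3 h4
  have nT : 0 ≤ ∑ i ∈ Finset.Ico (-(k : ℤ)) k,
    |v (f.1 + (i + 1), f.2 + k) - v (f.1 + i, f.2 + k)| := by positivity
  have nB : 0 ≤ ∑ i ∈ Finset.Ico (-(k : ℤ)) k,
    |v (f.1 + (i + 1), f.2 - k) - v (f.1 + i, f.2 - k)| := by positivity
  have nR : 0 ≤ ∑ i ∈ Finset.Ico (-(k : ℤ)) k,
    |v (f.1 + k, f.2 + (i + 1)) - v (f.1 + k, f.2 + i)| := by positivity
  have nL : 0 ≤ ∑ i ∈ Finset.Ico (-(k : ℤ)) k,
    |v (f.1 - k, f.2 + (i + 1)) - v (f.1 - k, f.2 + i)| := by positivity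
  obtain ⟨x, y⟩ := p
  simp only at g1 g2 h3
  unfold rvar
  rcases h3 with h3 | h3
  · rcases abs_eq (by positivity : (0 : ℤ) ≤ k) |>.1 h3 with h | h
    · -- right side
      have h5 := hR (y - f.2) k (by omega) (by omega) (by omega) le_rfl
      simp only [add_sub_cancel] at h5
      have : x = f.1 + k := by omega
      subst this
      linarith
    · -- left side, through the upper left corner
      have h5 := hL (y - f.2) k (by omega) (by omega) (by omega) le_rfl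
      have h6 := hT (-k) k le_rfl (by omega) (by omega) le_rfl
      simp only [add_sub_cancel] at h5
      have hx : x = f.1 - k := by omega
      subst hx
      have e : f.1 + -(k : ℤ) = f.1 - k := by ring
      rw [e] at h6
      have e2 : v (f.1 - k, y) - v (f.1 + k, f.2 + k) = (v (f.1 - k, y) - v (f.1 - k, f.2 + k)) +
        (v (f.1 - k, f.2 + k) - v (f.1 + k, f.2 + k)) := by ring
      rw [e2]
      refine (abs_add_le _ _).trans ?_
      linarith
  · rcases abs_eq (by positivity : (0 : ℤ) ≤ k) |>.1 h3 with h | h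
    · -- upper side
      have h5 := hT (x - f.1) k (by omega) (by omega) (by omega) le_rfl
      simp only [add_sub_cancel] at h5
      have : y = f.2 + k := by omega
      subst this
      linarith
    · -- lower side, through the lower right corner
      have h5 := hB (x - f.1) k (by omega) (by omega) (by omega) le_rfl
      have h6 := hR (-k) k le_rfl (by omega) (by omega) le_rfl
      simp only [add_sub_cancel] at h5
      have hx : y = f.2 - k := by omega
      subst hx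
      have e : f.2 + -(k : ℤ) = f.2 - k := by ring
      rw [e] at h6
      have e2 : v (x, f.2 - k) - v (f.1 + k, f.2 + k) = (v (x, f.2 - k) - v (f.1 + k, f.2 - k)) +
        (v (f.1 + k, f.2 - k) - v (f.1 + k, f.2 + k)) := by ring
      rw [e2]
      refine (abs_add_le _ _).trans ?_
      linarith

theorem ring_osc {v : Z2 → ℝ} {f : Z2} {k : ℕ} {p q : Z2} (hp : OnRing f k p)
    (hq : OnRing f k q) : |v p - v q| ≤ 2 * rvar v f k := by
  have h1 := ring_corner (v := v) hp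
  have h2 := ring_corner (v := v) hq
  have e : v p - v q = (v p - v (f.1 + k, f.2 + k)) - (v q - v (f.1 + k, f.2 + k)) := by ring
  rw [e]
  refine (abs_sub _ _).trans ?_
  linarith

/-- the energy of `v` in the box of radius `m` about `f` -/
noncomputable def ben (v : Z2 → ℝ) (f : Z2) (m : ℕ) : ℝ :=
  ∑ j ∈ Finset.Icc (-(m : ℤ)) m, ∑ i ∈ Finset.Ico (-(m : ℤ)) m,
      (v (f.1 + (i + 1), f.2 + j) - v (f.1 + i, f.2 + j)) ^ 2 +
    ∑ j ∈ Finset.Icc (-(m : ℤ)) m, ∑ i ∈ Finset.Ico (-(m : ℤ)) m,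
      (v (f.1 + j, f.2 + (i + 1)) - v (f.1 + j, f.2 + i)) ^ 2

theorem sum_pm_le {G : ℤ → ℝ} (hG : ∀ j, 0 ≤ G j) (n m : ℕ) :
    ∑ k ∈ Finset.Ioc n m, (G k + G (-k)) ≤ ∑ j ∈ Finset.Icc (-(m : ℤ)) m, G j := by
  classical
  rw [Finset.sum_add_distrib]
  have h1 : ∑ k ∈ Finset.Ioc n m, G (k : ℤ) = ∑ j ∈ (Finset.Ioc n m).image (fun k : ℕ => (k : ℤ)),
      G j := by
    rw [Finset.sum_image]
    intro a _ b _ h
    have : (a : ℤ) = (b : ℤ) := h
    omega
  have h2 : ∑ k ∈ Finset.Ioc n m, G (-(k : ℤ)) =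
      ∑ j ∈ (Finset.Ioc n m).image (fun k : ℕ => -(k : ℤ)), G j := by
    rw [Finset.sum_image]
    intro a _ b _ h
    have : -(a : ℤ) = -(b : ℤ) := h
    omega
  rw [h1, h2, ← Finset.sum_union]
  · refine Finset.sum_le_sum_of_subset_of_nonneg ?_ fun _ _ _ => hG _
    intro j hj
    rw [Finset.mem_union, Finset.mem_image, Finset.mem_image] at hj
    rw [Finset.mem_Icc]
    rcases hj with ⟨k, hk, rfl⟩ | ⟨k, hk, rfl⟩ <;> rw [Finset.mem_Ioc] at hk <;> omega
  · rw [Finset.disjoint_left]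
    intro j hj hj'
    rw [Finset.mem_image] at hj hj'
    obtain ⟨k, hk, rfl⟩ := hj
    obtain ⟨k', hk', h⟩ := hj'
    rw [Finset.mem_Ioc] at hk hk'
    omega

theorem sum_ren_le (v : Z2 → ℝ) (f : Z2) (n m : ℕ) :
    ∑ k ∈ Finset.Ioc n m, ren v f k ≤ ben v f m := by
  have h1 := sum_pm_le (G := fun j => ∑ i ∈ Finset.Ico (-(m : ℤ)) m,
    (v (f.1 + (i + 1), f.2 + j) - v (f.1 + i, f.2 + j)) ^ 2) (fun j => by positivity) n m
  have h2 := sum_pm_le (G := fun j => ∑ i ∈ Finset.Ico (-(m : ℤ)) m,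
    (v (f.1 + j, f.2 + (i + 1)) - v (f.1 + j, f.2 + i)) ^ 2) (fun j => by positivity) n m
  unfold ben
  refine le_trans ?_ (add_le_add h1 h2)
  rw [← Finset.sum_add_distrib]
  refine Finset.sum_le_sum fun k hk => ?_
  rw [Finset.mem_Ioc] at hk
  have hsub : Finset.Ico (-(k : ℤ)) k ⊆ Finset.Ico (-(m : ℤ)) m := by
    intro i hi
    rw [Finset.mem_Ico] at hi ⊢
    omega
  have mono : ∀ F : ℤ → ℝ, (∀ i, 0 ≤ F i) → ∑ i ∈ Finset.Ico (-(k : ℤ)) k, F i ≤
      ∑ i ∈ Finset.Ico (-(m : ℤ)) m, F i := fun F hF =>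
    Finset.sum_le_sum_of_subset_of_nonneg hsub fun _ _ _ => hF _
  unfold ren
  have e1 := mono (fun i => (v (f.1 + (i + 1), f.2 + k) - v (f.1 + i, f.2 + k)) ^ 2)
    fun i => sq_nonneg _
  have e2 := mono (fun i => (v (f.1 + (i + 1), f.2 + -k) - v (f.1 + i, f.2 + -k)) ^ 2)
    fun i => sq_nonneg _
  have e3 := mono (fun i => (v (f.1 + k, f.2 + (i + 1)) - v (f.1 + k, f.2 + i)) ^ 2)
    fun i => sq_nonneg _
  have e4 := mono (fun i => (v (f.1 + -k, f.2 + (i + 1)) - v (f.1 + -k, f.2 + i)) ^ 2)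
    fun i => sq_nonneg _
  simp only [← sub_eq_add_neg] at e2 e4 ⊢
  linarith

theorem half_le (n M : ℕ) (hn : 1 ≤ n) :
    (M : ℝ) / 2 ≤ ∑ k ∈ Finset.Ioc n (n * 2 ^ M), (1 : ℝ) / k := by
  induction M with
  | zero => simp
  | succ M ih =>
    have hle : n ≤ n * 2 ^ M := Nat.le_mul_of_pos_right _ (by positivity)
    have hle2 : n * 2 ^ M ≤ n * 2 ^ (M + 1) := Nat.mul_le_mul_left _
      (Nat.pow_le_pow_right (by norm_num) (by omega))
    rw [← Finset.sum_Ioc_consecutive _ hle hle2]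
    have h1 : (1 : ℝ) / 2 ≤ ∑ k ∈ Finset.Ioc (n * 2 ^ M) (n * 2 ^ (M + 1)), (1 : ℝ) / k := by
      have h2 : ∀ k ∈ Finset.Ioc (n * 2 ^ M) (n * 2 ^ (M + 1)),
          (1 : ℝ) / (n * 2 ^ (M + 1) : ℕ) ≤ 1 / k := by
        intro k hk
        rw [Finset.mem_Ioc] at hk
        have : (0 : ℝ) < k := by
          have : 0 < k := by omega
          exact_mod_cast this
        refine one_div_le_one_div_of_le this ?_
        exact_mod_cast hk.2
      have h3 := Finset.card_nsmul_le_sum _ _ _ h2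
      rw [Nat.card_Ioc] at h3
      refine le_trans (le_of_eq ?_) h3
      have e : n * 2 ^ (M + 1) - n * 2 ^ M = n * 2 ^ M := by
        have : n * 2 ^ (M + 1) = n * 2 ^ M + n * 2 ^ M := by ring
        rw [this, Nat.add_sub_cancel]
      rw [e, nsmul_eq_mul]
      have hn0 : (n : ℝ) ≠ 0 := by
        have : n ≠ 0 := by omega
        exact_mod_cast this
      push_cast
      rw [pow_succ]
      field_simp
    push_cast
    linarith

/-- a ring on which `v` has small oscillation -/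
theorem exists_ring (v : Z2 → ℝ) (f : Z2) {n M : ℕ} (hn : 1 ≤ n) (hM : 1 ≤ M) {K : ℝ}
    (hK : ben v f (n * 2 ^ M) ≤ K) :
    ∃ k : ℕ, n < k ∧ k ≤ n * 2 ^ M ∧ rvar v f k ^ 2 ≤ 16 * K / M := by
  have hM0 : (0 : ℝ) < M := by exact_mod_cast hM
  by_contra hc
  push Not at hc
  have h1 : ∀ k ∈ Finset.Ioc n (n * 2 ^ M), 2 * K / M * ((1 : ℝ) / k) < ren v f k := by
    intro k hk
    rw [Finset.mem_Ioc] at hk
    have h2 := hc k hk.1 hk.2
    have h3 := rvar_sq v f k
    have hk0 : (0 : ℝ) < k := by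
      have : 0 < k := by omega
      exact_mod_cast this
    have h4 : 16 * K / M < 8 * k * ren v f k := h2.trans_le h3
    rw [mul_one_div, div_lt_iff₀ hk0]
    have : 2 * K / (M : ℝ) = 16 * K / M / 8 := by ring
    rw [this]
    linarith
  have hne : (Finset.Ioc n (n * 2 ^ M)).Nonempty := by
    rw [Finset.nonempty_Ioc]
    have : 2 ≤ 2 ^ M := by
      calc 2 = 2 ^ 1 := rfl
        _ ≤ 2 ^ M := Nat.pow_le_pow_right (by norm_num) hM
    nlinarith
  have h2 := Finset.sum_lt_sum_of_nonempty hne h1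
  rw [← Finset.mul_sum] at h2
  have h3 := (sum_ren_le v f n (n * 2 ^ M)).trans hK
  have h4 := half_le n M hn
  have hK0 : 0 ≤ K := le_trans (Finset.sum_nonneg fun k _ => ren_nonneg v f k) h3
  have h5 : K ≤ 2 * K / M * ∑ k ∈ Finset.Ioc n (n * 2 ^ M), (1 : ℝ) / k := by
    refine le_trans (le_of_eq ?_) (mul_le_mul_of_nonneg_left h4 (by positivity))
    field_simp
  linarith

/-! ### paths and the maximum principle -/

/-- neighbouring faces -/
def Nbr (f g : Z2) : Prop := ∃ e, (rt e = f ∧ lf e = g) ∨ (rt e = g ∧ lf e = f)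

theorem Nbr.step {f g : Z2} (h : Nbr f g) : |g.1 - f.1| ≤ 1 ∧ |g.2 - f.2| ≤ 1 := by
  obtain ⟨⟨p, d⟩, h⟩ := h
  cases d <;> simp only [rt, lf, Bool.false_eq_true, if_false, if_true] at h <;>
    rcases h with ⟨rfl, rfl⟩ | ⟨rfl, rfl⟩ <;> simp

/-- `R`-avoiding paths -/
def Esc (R : Finset Z2) (a b : Z2) : Prop :=
  a ∉ R ∧ Relation.ReflTransGen (fun x y => Nbr x y ∧ y ∉ R) a b

theorem Esc.cross {R : Finset Z2} {a b : Z2} (h : Esc R a b) {f : Z2} {k : ℕ}
    (ha : InBox f k a) (hb : ¬ InBox f k b) : ∃ c, c ∉ R ∧ OnRing f k c := by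
  obtain ⟨haR, hp⟩ := h
  induction hp using Relation.ReflTransGen.head_induction_on with
  | refl => exact absurd ha hb
  | @head x y hxy hyb ih =>
    obtain ⟨hn, hyR⟩ := hxy
    by_cases hy : InBox f k y
    · exact ih hy hyR
    · refine ⟨x, haR, ha, ?_⟩
      obtain ⟨s1, s2⟩ := hn.step
      obtain ⟨a1, a2⟩ := ha
      by_contra hc
      push Not at hc
      apply hy
      have c1 := lt_of_le_of_ne a1 hc.1
      have c2 := lt_of_le_of_ne a2 hc.2
      rw [abs_lt] at c1 c2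
      rw [abs_le] at s1 s2
      constructor <;> rw [abs_le] <;> omega

/-- maximum principle inside a ring -/
theorem ring_max {R : Finset Z2} {v : Z2 → ℝ} (hv : ∀ p ∈ R, lap v p = 0) {f : Z2} {k : ℕ} {A : ℝ}
    (h1 : ∀ p, OnRing f k p → v p ≤ A) (h2 : ∀ p, InBox f k p → p ∉ R → v p ≤ A) :
    ∀ p, InBox f k p → v p ≤ A := by
  classical
  intro p hp
  let R' : Finset Z2 := R.filter fun q => |q.1 - f.1| < k ∧ |q.2 - f.2| < k
  have h := le_of_sub (R := R') (v := fun q => if InBox f k q then v q else A) (M := A) ?_ ?_ p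
  · simpa [hp] using h
  · intro q hq
    obtain ⟨hqR, c1, c2⟩ := Finset.mem_filter.1 hq
    have hl := hv q hqR
    rw [abs_lt] at c1 c2
    have b0 : InBox f k q := by constructor <;> rw [abs_le] <;> omega
    have b1 : InBox f k (q.1 + 1, q.2) := by constructor <;> simp only <;> rw [abs_le] <;> omega
    have b2 : InBox f k (q.1 - 1, q.2) := by constructor <;> simp only <;> rw [abs_le] <;> omega
    have b3 : InBox f k (q.1, q.2 + 1) := by constructor <;> simp only <;> rw [abs_le] <;> omega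
    have b4 : InBox f k (q.1, q.2 - 1) := by constructor <;> simp only <;> rw [abs_le] <;> omega
    simp only [lap, b0, b1, b2, b3, b4, if_true] at hl ⊢
    rw [hl]
  · intro q hq
    by_cases hb : InBox f k q
    · simp only [hb, if_true]
      by_cases hqR : q ∈ R
      · refine h1 q ⟨hb, ?_⟩
        by_contra hc
        push Not at hc
        exact hq (Finset.mem_filter.2 ⟨hqR, lt_of_le_of_ne hb.1 hc.1, lt_of_le_of_ne hb.2 hc.2⟩)
      · exact h2 q hb hqR
    · simp [hb]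

/-- **Courant-Lebesgue**: near a face of the complement of `R` which is joined in the complement to
the outside of a large box, `v` is close to its boundary values -/
theorem cl_aux {R : Finset Z2} {v t : Z2 → ℝ} (hv : ∀ p ∈ R, lap v p = 0)
    (hvt : ∀ p, p ∉ R → v p = t p) {f : Z2} {n M : ℕ} (hn : 1 ≤ n) (hM : 1 ≤ M) {K τ : ℝ}
    (hK : ben v f (n * 2 ^ M) ≤ K)
    (hτ : ∀ p q, InBox f (n * 2 ^ M) p → InBox f (n * 2 ^ M) q → t p - t q ≤ τ)
    {a b : Z2} (ha : InBox f n a) (hb : ¬ InBox f (n * 2 ^ M) b) (hab : Esc R a b) :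
    ∀ p, InBox f n p → |v p - t p| ≤ 8 * Real.sqrt (K / M) + 2 * τ := by
  obtain ⟨k, hnk, hkm, hk⟩ := exists_ring v f hn hM hK
  obtain ⟨c, hcR, hc⟩ := hab.cross (k := k) (ha.mono hnk.le) fun h => hb (h.mono hkm)
  have hrv : rvar v f k ≤ 4 * Real.sqrt (K / M) := by
    have h0 : 0 ≤ rvar v f k := by unfold rvar; positivity
    rw [← abs_of_nonneg h0, ← Real.sqrt_sq_eq_abs]
    have : 4 * Real.sqrt (K / M) = Real.sqrt (16 * K / M) := by
      rw [show 16 * K / (M : ℝ) = 4 ^ 2 * (K / M) by ring, Real.sqrt_mul (by positivity),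
        Real.sqrt_sq (by norm_num)]
    rw [this]
    exact Real.sqrt_le_sqrt hk
  have hvc : v c = t c := hvt c hcR
  have up : ∀ p, InBox f k p → v p ≤ t c + (8 * Real.sqrt (K / M) + τ) := by
    have hτ0 : 0 ≤ τ := by
      have := hτ f f ⟨by simp, by simp⟩ ⟨by simp, by simp⟩
      simpa using this
    refine ring_max hv ?_ ?_
    · intro p hp
      have := (abs_le.1 (ring_osc (v := v) hp hc)).2
      linarith
    · intro p hp hpR
      rw [hvt p hpR]
      have := hτ p c (hp.mono hkm) (hc.1.mono hkm)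
      have := Real.sqrt_nonneg (K / M)
      linarith
  have dn : ∀ p, InBox f k p → -v p ≤ -t c + (8 * Real.sqrt (K / M) + τ) := by
    have hτ0 : 0 ≤ τ := by
      have := hτ f f ⟨by simp, by simp⟩ ⟨by simp, by simp⟩
      simpa using this
    refine ring_max (v := fun q => -v q) (fun p hp => by rw [lap_neg, hv p hp, neg_zero]) ?_ ?_
    · intro p hp
      have := (abs_le.1 (ring_osc (v := v) hp hc)).1
      linarith
    · intro p hp hpR
      rw [hvt p hpR]
      have := hτ c p (hc.1.mono hkm) (hp.mono hkm)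
      have := Real.sqrt_nonneg (K / M)
      linarith
  intro p hp
  have hp' : InBox f (n * 2 ^ M) p := hp.mono (hnk.le.trans hkm)
  have t1 := hτ p c hp' (hc.1.mono hkm)
  have t2 := hτ c p (hc.1.mono hkm) hp'
  have u1 := up p (hp.mono hnk.le)
  have u2 := dn p (hp.mono hnk.le)
  rw [abs_le]
  constructor <;> linarith

end Vale.Agent.P159.T1.H775
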