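import Vale.Agent.P159.T1.H775.CL

/-! # P159, T1, stage 2, row S.CL: local energy and the final form of the Courant-Lebesgue lemma -/

open Finset
open Vale.Agent.P159.T1.D

namespace Vale.Agent.P159.T1.H775

/-- the bonds with base point in the box of radius `m` about `f` -/
noncomputable def Sb (f : Z2) (m : ℕ) : Finset Bnd :=
  (Finset.Icc (f.1 - m) (f.1 + m) ×ˢ Finset.Icc (f.2 - m) (f.2 + m)) ×ˢ Finset.univ

theorem mem_Sb {f : Z2} {m : ℕ} {e : Bnd} : e ∈ Sb f m ↔ InBox f m e.1 := by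
  simp only [Sb, Finset.mem_product, Finset.mem_univ, and_true, Finset.mem_Icc, InBox, abs_le]
  constructor
  · rintro ⟨⟨h1, h2⟩, h3, h4⟩; exact ⟨⟨by omega, by omega⟩, by omega, by omega⟩
  · rintro ⟨⟨h1, h2⟩, h3, h4⟩; exact ⟨⟨by omega, by omega⟩, by omega, by omega⟩

theorem card_Sb (f : Z2) (m : ℕ) : ((Sb f m).card : ℝ) = 2 * (2 * m + 1) ^ 2 := by
  have h1 : ∀ a : ℤ, (a + m + 1 - (a - m)).toNat = 2 * m + 1 := fun a => by omega
  simp only [Sb, Finset.card_product, Int.card_Icc, h1, Finset.card_univ, Fintype.card_bool]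
  push_cast; ring

/-- the energy in the box, bounded by a sum over bonds -/
theorem ben_le {v : Z2 → ℝ} {f : Z2} {m : ℕ} {S : Finset Bnd} {F : Bnd → ℝ} (hF : ∀ e, 0 ≤ F e)
    (hS : Sb f m ⊆ S)
    (h : ∀ e, InBox f m (lf e) → InBox f m (rt e) → dr v e ^ 2 ≤ F e) :
    ben v f m ≤ ∑ e ∈ S, F e := by
  classical
  let P : Finset (ℤ × ℤ) := Finset.Icc (-(m : ℤ)) m ×ˢ Finset.Ico (-(m : ℤ)) m
  let T1 : ℤ × ℤ → Bnd := fun x => ((f.1 + (x.2 + 1), f.2 + x.1), true)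
  let T2 : ℤ × ℤ → Bnd := fun x => ((f.1 + x.1, f.2 + (x.2 + 1)), false)
  have mP : ∀ x, x ∈ P ↔ (-(m : ℤ) ≤ x.1 ∧ x.1 ≤ m) ∧ (-(m : ℤ) ≤ x.2 ∧ x.2 < m) := by
    intro x; simp [P]
  have i1 : Set.InjOn T1 P := by
    intro x _ y _ h
    simp only [T1, Prod.mk.injEq, and_true] at h
    exact Prod.ext (by omega) (by omega)
  have i2 : Set.InjOn T2 P := by
    intro x _ y _ h
    simp only [T2, Prod.mk.injEq, and_true] at h
    exact Prod.ext (by omega) (by omega)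
  have e1 : ∀ x ∈ P, (v (f.1 + (x.2 + 1), f.2 + x.1) - v (f.1 + x.2, f.2 + x.1)) ^ 2 ≤
      F (T1 x) := by
    intro x hx
    obtain ⟨⟨a1, a2⟩, a3, a4⟩ := (mP x).1 hx
    have h0 := h (T1 x)
    simp only [T1, lf, rt, dr, if_true] at h0 ⊢
    rw [show f.1 + (x.2 + 1) - 1 = f.1 + x.2 by ring] at h0
    rw [sub_sq_comm]
    refine h0 ?_ ?_ <;> constructor <;> simp only <;> rw [abs_le] <;> omega
  have e2 : ∀ x ∈ P, (v (f.1 + x.1, f.2 + (x.2 + 1)) - v (f.1 + x.1, f.2 + x.2)) ^ 2 ≤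
      F (T2 x) := by
    intro x hx
    obtain ⟨⟨a1, a2⟩, a3, a4⟩ := (mP x).1 hx
    have h0 := h (T2 x)
    simp only [T2, lf, rt, dr, Bool.false_eq_true, if_false] at h0 ⊢
    rw [show f.2 + (x.2 + 1) - 1 = f.2 + x.2 by ring] at h0
    refine h0 ?_ ?_ <;> constructor <;> simp only <;> rw [abs_le] <;> omega
  have hb : ben v f m = ∑ x ∈ P, (v (f.1 + (x.2 + 1), f.2 + x.1) - v (f.1 + x.2, f.2 + x.1)) ^ 2 +
      ∑ x ∈ P, (v (f.1 + x.1, f.2 + (x.2 + 1)) - v (f.1 + x.1, f.2 + x.2)) ^ 2 := by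
    simp only [ben, P, Finset.sum_product]
  rw [hb]
  refine (add_le_add (Finset.sum_le_sum e1) (Finset.sum_le_sum e2)).trans ?_
  rw [← Finset.sum_image i1, ← Finset.sum_image i2, ← Finset.sum_union]
  · refine Finset.sum_le_sum_of_subset_of_nonneg ?_ fun _ _ _ => hF _
    intro e he
    refine hS (mem_Sb.2 ?_)
    rw [Finset.mem_union, Finset.mem_image, Finset.mem_image] at he
    rcases he with ⟨x, hx, rfl⟩ | ⟨x, hx, rfl⟩ <;> obtain ⟨⟨a1, a2⟩, a3, a4⟩ := (mP x).1 hx <;>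
      constructor <;> simp only [T1, T2] <;> rw [abs_le] <;> omega
  · rw [Finset.disjoint_left]
    intro e he he'
    rw [Finset.mem_image] at he he'
    obtain ⟨x, _, rfl⟩ := he
    obtain ⟨y, _, hy⟩ := he'
    simp [T1, T2] at hy

theorem ben_mono (v : Z2 → ℝ) (f : Z2) {m m' : ℕ} (h : m ≤ m') : ben v f m ≤ ben v f m' := by
  have s1 : Finset.Icc (-(m : ℤ)) m ⊆ Finset.Icc (-(m' : ℤ)) m' := by
    intro i hi; rw [Finset.mem_Icc] at hi ⊢; omega
  have s2 : Finset.Ico (-(m : ℤ)) m ⊆ Finset.Ico (-(m' : ℤ)) m' := by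
    intro i hi; rw [Finset.mem_Ico] at hi ⊢; omega
  have key : ∀ F : ℤ → ℤ → ℝ, (∀ i j, 0 ≤ F i j) →
      ∑ j ∈ Finset.Icc (-(m : ℤ)) m, ∑ i ∈ Finset.Ico (-(m : ℤ)) m, F i j ≤
      ∑ j ∈ Finset.Icc (-(m' : ℤ)) m', ∑ i ∈ Finset.Ico (-(m' : ℤ)) m', F i j := by
    intro F hF
    refine (Finset.sum_le_sum fun j _ => Finset.sum_le_sum_of_subset_of_nonneg s2
      fun _ _ _ => hF _ _).trans ?_
    exact Finset.sum_le_sum_of_subset_of_nonneg s1 fun _ _ _ => Finset.sum_nonneg fun _ _ => hF _ _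
  exact add_le_add (key (fun i j => (v (f.1 + (i + 1), f.2 + j) - v (f.1 + i, f.2 + j)) ^ 2)
    fun _ _ => sq_nonneg _) (key (fun i j => (v (f.1 + j, f.2 + (i + 1)) -
      v (f.1 + j, f.2 + i)) ^ 2) fun _ _ => sq_nonneg _)

/-! ### the cut-off -/

/-- distance (sup norm) -/
noncomputable def dst (f p : Z2) : ℝ := max |((p.1 - f.1 : ℤ) : ℝ)| |((p.2 - f.2 : ℤ) : ℝ)|

/-- cut-off: `1` in the box of radius `L`, `0` outside the box of radius `2 L` -/
noncomputable def cut (f : Z2) (L : ℕ) (p : Z2) : ℝ := max 0 (min 1 (2 - dst f p / L))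

theorem dst_le {f : Z2} {m : ℕ} {p : Z2} (h : InBox f m p) : dst f p ≤ m := by
  refine max_le ?_ ?_
  · rw [← Int.cast_abs]; exact_mod_cast h.1
  · rw [← Int.cast_abs]; exact_mod_cast h.2

theorem lt_dst {f : Z2} {m : ℕ} {p : Z2} (h : ¬ InBox f m p) : (m : ℝ) < dst f p := by
  rw [InBox, not_and_or, not_le, not_le] at h
  rcases h with h | h
  · refine lt_max_of_lt_left ?_
    rw [← Int.cast_abs]; exact_mod_cast h
  · refine lt_max_of_lt_right ?_
    rw [← Int.cast_abs]; exact_mod_cast h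

theorem dst_nbr {f p q : Z2} (h : Nbr p q) : |dst f p - dst f q| ≤ 1 := by
  obtain ⟨h1, h2⟩ := h.step
  have g1 : |(|((p.1 - f.1 : ℤ) : ℝ)| - |((q.1 - f.1 : ℤ) : ℝ)|)| ≤ 1 := by
    refine (abs_abs_sub_abs_le_abs_sub _ _).trans ?_
    rw [← Int.cast_sub, ← Int.cast_abs, show p.1 - f.1 - (q.1 - f.1) = p.1 - q.1 by ring,
      abs_sub_comm]
    exact_mod_cast h1
  have g2 : |(|((p.2 - f.2 : ℤ) : ℝ)| - |((q.2 - f.2 : ℤ) : ℝ)|)| ≤ 1 := by
    refine (abs_abs_sub_abs_le_abs_sub _ _).trans ?_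
    rw [← Int.cast_sub, ← Int.cast_abs, show p.2 - f.2 - (q.2 - f.2) = p.2 - q.2 by ring,
      abs_sub_comm]
    exact_mod_cast h2
  exact (abs_max_sub_max_le_max _ _ _ _).trans (max_le g1 g2)

theorem clamp_lip (x y : ℝ) : |max 0 (min 1 x) - max 0 (min 1 y)| ≤ |x - y| := by
  have h1 := abs_max_sub_max_le_max 0 (min 1 x) 0 (min 1 y)
  have h2 := abs_min_sub_min_le_max 1 x 1 y
  have h3 := abs_nonneg (x - y)
  simp only [sub_self, abs_zero] at h1 h2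
  refine h1.trans (max_le h3 (h2.trans (max_le h3 le_rfl)))

theorem cut_nbr {f : Z2} {L : ℕ} (hL : 1 ≤ L) {p q : Z2} (h : Nbr p q) :
    |cut f L p - cut f L q| ≤ 1 / L := by
  have hL0 : (0 : ℝ) < L := by exact_mod_cast hL
  refine (clamp_lip _ _).trans ?_
  rw [show 2 - dst f p / (L : ℝ) - (2 - dst f q / L) = (dst f q - dst f p) / L by ring, abs_div,
    abs_of_pos hL0, abs_sub_comm]
  exact div_le_div_of_nonneg_right (dst_nbr h) hL0.le

theorem cut_one {f : Z2} {L : ℕ} (hL : 1 ≤ L) {p : Z2} (h : InBox f L p) : cut f L p = 1 := by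
  have hL0 : (0 : ℝ) < L := by exact_mod_cast hL
  have h1 : dst f p / L ≤ 1 := (div_le_one hL0).2 (dst_le h)
  rw [cut, min_eq_left (by linarith), max_eq_right (by norm_num)]

theorem cut_zero {f : Z2} {L : ℕ} (hL : 1 ≤ L) {p : Z2} (h : ¬ InBox f (2 * L) p) :
    cut f L p = 0 := by
  have hL0 : (0 : ℝ) < L := by exact_mod_cast hL
  have h1 : 2 ≤ dst f p / L := by
    rw [le_div_iff₀ hL0]
    have := lt_dst h
    push_cast at this
    exact this.le
  rw [cut, max_eq_left]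
  exact (min_le_right _ _).trans (by linarith)

theorem cut_mem (f : Z2) (L : ℕ) (p : Z2) : 0 ≤ cut f L p ∧ cut f L p ≤ 1 :=
  ⟨le_max_left _ _, max_le (by norm_num) (min_le_left _ _)⟩

theorem nbr_lf_rt (e : Bnd) : Nbr (lf e) (rt e) := ⟨e, Or.inr ⟨rfl, rfl⟩⟩

theorem base_box {f : Z2} {m : ℕ} {e : Bnd} (h : InBox f m (lf e) ∨ InBox f m (rt e)) :
    InBox f (m + 1) e.1 := by
  obtain ⟨p, d⟩ := e
  cases d <;> simp only [lf, rt, Bool.false_eq_true, if_false, if_true, InBox, abs_le] at h ⊢ <;>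
    push_cast <;> rcases h with ⟨⟨h1, h2⟩, h3, h4⟩ | ⟨⟨h1, h2⟩, h3, h4⟩ <;>
    refine ⟨⟨?_, ?_⟩, ?_, ?_⟩ <;> omega

/-- unit steps bound the gradient on bonds -/
theorem dr_le_of_stp {t : Z2 → ℝ} {f : Z2} {m : ℕ} {g : ℝ}
    (h : ∀ p d, InBox f (m + 1) p → |t (stp d p) - t p| ≤ g) {e : Bnd} (he : InBox f m e.1) :
    |dr t e| ≤ g := by
  obtain ⟨p, d⟩ := e
  obtain ⟨h1, h2⟩ := he
  simp only at h1 h2
  rw [abs_le] at h1 h2
  cases d with
  | false =>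
    have := h (p.1, p.2 - 1) true (by
      constructor <;> simp only <;> rw [abs_le] <;> push_cast <;> constructor <;> omega)
    simpa [stp, dr, lf, rt] using this
  | true =>
    have := h (p.1 - 1, p.2) false (by
      constructor <;> simp only <;> rw [abs_le] <;> push_cast <;> constructor <;> omega)
    rw [abs_sub_comm] at this
    simpa [stp, dr, lf, rt] using this

/-- **local energy bound** -/
theorem ben_bound {R : Finset Z2} {v t : Z2 → ℝ} (hv : ∀ p ∈ R, lap v p = 0)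
    (hvt : ∀ p, p ∉ R → v p = t p) {f : Z2} {L : ℕ} (hL : 1 ≤ L) {T G : ℝ} (hG0 : 0 ≤ G)
    (hT : ∀ p, |t p| ≤ T) (hG : ∀ p d, InBox f (2 * L + 2) p → |t (stp d p) - t p| ≤ G / L) :
    ben v f L ≤ (56 * (T + G)) ^ 2 := by
  classical
  have hL0 : (0 : ℝ) < L := by exact_mod_cast hL
  have hL1 : (1 : ℝ) ≤ L := by exact_mod_cast hL
  have hT0 : 0 ≤ T := (abs_nonneg _).trans (hT (0, 0))
  have hvT : ∀ p, |v p| ≤ T := abs_le_of_harm hv fun p hp => by rw [hvt p hp]; exact hT p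
  set χ := cut f L with hχ
  let S : Finset Bnd := bd R ∪ Sb f (2 * L + 1)
  have hsub : Sb f L ⊆ S := fun e he =>
    Finset.mem_union_right _ (mem_Sb.2 ((mem_Sb.1 he).mono (by omega)))
  have h1 : ben v f L ≤ ∑ e ∈ S, (χ (lf e) ^ 2 + χ (rt e) ^ 2) / 2 * dr v e ^ 2 := by
    refine ben_le (fun e => by positivity) hsub fun e ha hb => ?_
    rw [hχ, cut_one hL ha, cut_one hL hb]
    norm_num
  refine h1.trans ((cacc (t := t) Finset.subset_union_left hv fun p hp => by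
    rw [hvt p hp]; ring).trans ?_)
  have hz : ∀ e, e ∉ Sb f (2 * L + 1) → χ (lf e) = 0 ∧ χ (rt e) = 0 := by
    intro e he
    have he' : ¬ InBox f (2 * L + 1) e.1 := fun h => he (mem_Sb.2 h)
    constructor
    · exact cut_zero hL fun h => he' (base_box (Or.inl h))
    · exact cut_zero hL fun h => he' (base_box (Or.inr h))
  have r1 : ∑ e ∈ S, (χ (lf e) ^ 2 + χ (rt e) ^ 2) / 2 * dr t e ^ 2 =
      ∑ e ∈ Sb f (2 * L + 1), (χ (lf e) ^ 2 + χ (rt e) ^ 2) / 2 * dr t e ^ 2 := by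
    refine (Finset.sum_subset Finset.subset_union_right fun e _ he => ?_).symm
    obtain ⟨z1, z2⟩ := hz e he
    rw [z1, z2]; ring
  have r2 : ∑ e ∈ S, (v (lf e) - t (lf e) + (v (rt e) - t (rt e))) ^ 2 * dr χ e ^ 2 =
      ∑ e ∈ Sb f (2 * L + 1), (v (lf e) - t (lf e) + (v (rt e) - t (rt e))) ^ 2 * dr χ e ^ 2 := by
    refine (Finset.sum_subset Finset.subset_union_right fun e _ he => ?_).symm
    obtain ⟨z1, z2⟩ := hz e he
    rw [dr, z1, z2]; ring
  rw [r1, r2]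
  have b1 : ∑ e ∈ Sb f (2 * L + 1), (χ (lf e) ^ 2 + χ (rt e) ^ 2) / 2 * dr t e ^ 2 ≤
      (Sb f (2 * L + 1)).card * (G / L) ^ 2 := by
    rw [← nsmul_eq_mul]
    refine Finset.sum_le_card_nsmul _ _ _ fun e he => ?_
    have hd := dr_le_of_stp (t := t) (f := f) (m := 2 * L + 1) hG (mem_Sb.1 he)
    have hd2 : dr t e ^ 2 ≤ (G / L) ^ 2 := sq_le_sq' (abs_le.1 hd).1 (abs_le.1 hd).2
    have hc : (χ (lf e) ^ 2 + χ (rt e) ^ 2) / 2 ≤ 1 := by
      have c1 := cut_mem f L (lf e)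
      have c2 := cut_mem f L (rt e)
      rw [← hχ] at c1 c2
      nlinarith
    calc (χ (lf e) ^ 2 + χ (rt e) ^ 2) / 2 * dr t e ^ 2 ≤ 1 * (G / L) ^ 2 :=
          mul_le_mul hc hd2 (sq_nonneg _) (by norm_num)
      _ = (G / L) ^ 2 := one_mul _
  have b2 : ∑ e ∈ Sb f (2 * L + 1),
      (v (lf e) - t (lf e) + (v (rt e) - t (rt e))) ^ 2 * dr χ e ^ 2 ≤
      (Sb f (2 * L + 1)).card * ((4 * T) ^ 2 * (1 / L) ^ 2) := by
    rw [← nsmul_eq_mul]
    refine Finset.sum_le_card_nsmul _ _ _ fun e _ => ?_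
    have hd : |dr χ e| ≤ 1 / L := cut_nbr hL (nbr_lf_rt e)
    have hd2 : dr χ e ^ 2 ≤ (1 / L) ^ 2 := sq_le_sq' (abs_le.1 hd).1 (abs_le.1 hd).2
    have a1 := abs_le.1 (hvT (lf e))
    have a2 := abs_le.1 (hvT (rt e))
    have a3 := abs_le.1 (hT (lf e))
    have a4 := abs_le.1 (hT (rt e))
    have hw : (v (lf e) - t (lf e) + (v (rt e) - t (rt e))) ^ 2 ≤ (4 * T) ^ 2 :=
      sq_le_sq' (by linarith) (by linarith)
    exact mul_le_mul hw hd2 (sq_nonneg _) (sq_nonneg _)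
  rw [card_Sb] at b1 b2
  push_cast at b1 b2
  have k1 : (2 * (2 * (2 * (L : ℝ) + 1) + 1) ^ 2) ≤ 98 * (L : ℝ) ^ 2 := by nlinarith
  have c1 : (2 * (2 * (2 * (L : ℝ) + 1) + 1) ^ 2) * (G / L) ^ 2 ≤ 98 * G ^ 2 := by
    refine (mul_le_mul_of_nonneg_right k1 (sq_nonneg _)).trans (le_of_eq ?_)
    field_simp
  have c2 : (2 * (2 * (2 * (L : ℝ) + 1) + 1) ^ 2) * ((4 * T) ^ 2 * (1 / L) ^ 2) ≤
      98 * (4 * T) ^ 2 := by
    refine (mul_le_mul_of_nonneg_right k1 (by positivity)).trans (le_of_eq ?_)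
    field_simp
  nlinarith [mul_nonneg hT0 hG0]

/-- oscillation of `t` in a box -/
theorem osc_box {t : Z2 → ℝ} {f : Z2} {m : ℕ} {g : ℝ}
    (h : ∀ p d, InBox f m p → |t (stp d p) - t p| ≤ g) {p q : Z2} (hp : InBox f m p)
    (hq : InBox f m q) : t p - t q ≤ 4 * m * g := by
  obtain ⟨p1, p2⟩ := hp
  obtain ⟨q1, q2⟩ := hq
  rw [abs_le] at p1 p2 q1 q2
  have h1 := var_le' (fun i => t (i, p.2)) (a := f.1 - m) (b := f.1 + m) (x := p.1) (y := q.1)
    (by omega) (by omega) (by omega) (by omega)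
  have h2 := var_le' (fun i => t (q.1, i)) (a := f.2 - m) (b := f.2 + m) (x := p.2) (y := q.2)
    (by omega) (by omega) (by omega) (by omega)
  have s1 : ∑ i ∈ Finset.Ico (f.1 - (m : ℤ)) (f.1 + m), |t (i + 1, p.2) - t (i, p.2)| ≤
      2 * m * g := by
    have := Finset.sum_le_card_nsmul (Finset.Ico (f.1 - (m : ℤ)) (f.1 + m))
      (fun i => |t (i + 1, p.2) - t (i, p.2)|) g (fun i hi => by
        rw [Finset.mem_Ico] at hi
        have := h (i, p.2) false (by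
          constructor <;> simp only <;> rw [abs_le] <;> constructor <;> omega)
        simpa [stp] using this)
    rw [Int.card_Ico, show (f.1 + (m : ℤ) - (f.1 - m)).toNat = 2 * m by omega, nsmul_eq_mul] at this
    push_cast at this
    exact this
  have s2 : ∑ i ∈ Finset.Ico (f.2 - (m : ℤ)) (f.2 + m), |t (q.1, i + 1) - t (q.1, i)| ≤
      2 * m * g := by
    have := Finset.sum_le_card_nsmul (Finset.Ico (f.2 - (m : ℤ)) (f.2 + m))
      (fun i => |t (q.1, i + 1) - t (q.1, i)|) g (fun i hi => by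
        rw [Finset.mem_Ico] at hi
        have := h (q.1, i) true (by
          constructor <;> simp only <;> rw [abs_le] <;> constructor <;> omega)
        simpa [stp] using this)
    rw [Int.card_Ico, show (f.2 + (m : ℤ) - (f.2 - m)).toNat = 2 * m by omega, nsmul_eq_mul] at this
    push_cast at this
    exact this
  have e : t p - t q = (t (p.1, p.2) - t (q.1, p.2)) + (t (q.1, p.2) - t (q.1, q.2)) := by ring
  have a1 := (abs_le.1 h1).2
  have a2 := (abs_le.1 h2).2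
  linarith

/-- **S.CL** -/
theorem cl {R : Finset Z2} {v t : Z2 → ℝ} (hv : ∀ p ∈ R, lap v p = 0)
    (hvt : ∀ p, p ∉ R → v p = t p) {f : Z2} {n M L : ℕ} (hn : 1 ≤ n) (hM : 1 ≤ M)
    (hL : n * 2 ^ M ≤ L) {T G : ℝ} (hG0 : 0 ≤ G) (hT : ∀ p, |t p| ≤ T)
    (hG : ∀ p d, InBox f (2 * L + 2) p → |t (stp d p) - t p| ≤ G / L)
    {a b : Z2} (ha : InBox f n a) (hb : ¬ InBox f (n * 2 ^ M) b) (hab : Esc R a b) :
    ∀ p, InBox f n p →
      |v p - t p| ≤ 448 * (T + G) / Real.sqrt M + 8 * ((n : ℝ) * 2 ^ M / L) * G := by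
  have hm1 : 1 ≤ n * 2 ^ M := Nat.one_le_iff_ne_zero.2 (by positivity)
  have hL1 : 1 ≤ L := hm1.trans hL
  have hT0 : 0 ≤ T := (abs_nonneg _).trans (hT (0, 0))
  have hK := ben_bound hv hvt (f := f) hL1 hG0 hT hG
  have hK' : ben v f (n * 2 ^ M) ≤ (56 * (T + G)) ^ 2 := (ben_mono v f hL).trans hK
  intro p hp
  have h := cl_aux hv hvt hn hM hK' (τ := 4 * (n * 2 ^ M : ℕ) * (G / L))
    (fun p q hp hq => osc_box (fun p d hp => hG p d (hp.mono (by omega))) hp hq) ha hb hab p hp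
  refine h.trans (le_of_eq ?_)
  rw [Real.sqrt_div (by positivity), Real.sqrt_sq (by positivity)]
  push_cast
  ring

end Vale.Agent.P159.T1.H775
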