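import Vale.Agent.P159.T1.H775.Sector

/-! # P159, T1, row EN: the sector energy of `log |z|` on `ℤ²` -/

open Set MeasureTheory
open scoped Real ENNReal

namespace Vale.Agent.P159.T1.H775

/-- the site `P` as a complex number -/
noncomputable def zc (P : ℤ × ℤ) : ℂ := ⟨(P.1 : ℝ), (P.2 : ℝ)⟩

/-- `log |P|` -/
noncomputable def tc (P : ℤ × ℤ) : ℝ := Real.log ‖zc P‖

/-- energy of the two bonds which start at `P` -/
noncomputable def en (P : ℤ × ℤ) : ℝ :=
  (tc (P.1 + 1, P.2) - tc P) ^ 2 + (tc (P.1, P.2 + 1) - tc P) ^ 2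

/-- the unit cell with lower left corner `P` -/
def cell (P : ℤ × ℤ) : Set (ℝ × ℝ) := Ico (P.1 : ℝ) (P.1 + 1) ×ˢ Ico (P.2 : ℝ) (P.2 + 1)

/-- a point of the plane as a complex number -/
def wc (p : ℝ × ℝ) : ℂ := ⟨p.1, p.2⟩

theorem zc_e1 (P : ℤ × ℤ) : zc (P.1 + 1, P.2) = zc P + 1 := by
  apply Complex.ext <;> simp [zc]

theorem zc_e2 (P : ℤ × ℤ) : zc (P.1, P.2 + 1) = zc P + Complex.I := by
  apply Complex.ext <;> simp [zc]

theorem hder_one (v z : ℂ) : hder (fun _ => 1) v z = (v / z).re := by simp [hder]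

theorem hder_sq (w : ℂ) (hw : w ≠ 0) :
    hder (fun _ => 1) 1 w ^ 2 + hder (fun _ => 1) Complex.I w ^ 2 = 1 / ‖w‖ ^ 2 := by
  rw [hder_one, hder_one, ← Complex.normSq_eq_norm_sq]
  have h : Complex.normSq w ≠ 0 := by rwa [Ne, Complex.normSq_eq_zero]
  simp only [Complex.div_re, Complex.one_re, Complex.one_im, Complex.I_re, Complex.I_im]
  have h2 : Complex.normSq w = w.re ^ 2 + w.im ^ 2 := by rw [Complex.normSq_apply]; ring
  field_simp
  rw [h2]; ring

theorem norm_cell {P : ℤ × ℤ} {p : ℝ × ℝ} (hp : p ∈ cell P) : ‖wc p - zc P‖ ≤ 3 / 2 := by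
  obtain ⟨⟨h1, h2⟩, ⟨h3, h4⟩⟩ := hp
  have h : ‖wc p - zc P‖ ^ 2 ≤ 2 := by
    rw [← Complex.normSq_eq_norm_sq, Complex.normSq_apply]
    simp only [wc, zc, Complex.sub_re, Complex.sub_im]
    nlinarith
  nlinarith [norm_nonneg (wc p - zc P)]

theorem sq_sub_le {a h m : ℝ} (hm : 0 < m) (h1 : |a - h| ≤ 5 / m ^ 2) (h2 : |a| ≤ 1 / m)
    (h3 : |h| ≤ 1 / m) : a ^ 2 ≤ h ^ 2 + 10 / m ^ 3 := by
  have e : a ^ 2 - h ^ 2 = (a - h) * (a + h) := by ring
  have h4 : |a + h| ≤ 2 / m := by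
    refine (abs_add_le _ _).trans ?_
    have : (2 : ℝ) / m = 1 / m + 1 / m := by ring
    linarith
  have h5 : (a - h) * (a + h) ≤ 5 / m ^ 2 * (2 / m) := by
    refine (le_abs_self _).trans ?_
    rw [abs_mul]
    exact mul_le_mul h1 h4 (abs_nonneg _) (by positivity)
  have h6 : 5 / m ^ 2 * (2 / m) = 10 / m ^ 3 := by field_simp; norm_num
  linarith

theorem en_le {P : ℤ × ℤ} {p : ℝ × ℝ} (hp : p ∈ cell P) (hw : 10 ≤ ‖wc p‖) :
    en P ≤ 1 / ‖wc p‖ ^ 2 + 48 / ‖wc p‖ ^ 3 := by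
  set w := wc p with hwdef
  have hc := norm_cell hp
  rw [← hwdef] at hc
  set m : ℝ := ‖w‖ - 5 / 2 with hm
  have hm0 : 0 < m := by linarith
  have hz : ‖w‖ - 3 / 2 ≤ ‖zc P‖ := by
    have := norm_sub_norm_le w (zc P)
    linarith
  have hA : ∀ t : ℝ, |(fun _ : ℝ => (1 : ℝ)) t| ≤ 1 := by intro t; simp
  have hL : ∀ s t : ℝ, |(fun _ : ℝ => (1 : ℝ)) s - (fun _ : ℝ => (1 : ℝ)) t| ≤ 1 * |s - t| := by
    intro s t; simp
  have hΓ : ∀ t : ℝ, HasDerivAt (fun t : ℝ => t) ((fun _ : ℝ => (1 : ℝ)) t) t :=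
    fun t => hasDerivAt_id t
  have key : ∀ v : ℂ, ‖v‖ = 1 →
      (Real.log ‖zc P + v‖ - Real.log ‖zc P‖) ^ 2 ≤ hder (fun _ => 1) v w ^ 2 + 10 / m ^ 3 := by
    intro v hv
    obtain ⟨t, h0, h1, e⟩ := exists_mid hΓ (zc P) v (by rw [hv]; linarith)
    rw [e]
    have hζ : ‖zc P + t * v - w‖ ≤ 5 / 2 := by
      have : zc P + t * v - w = (t : ℂ) * v - (w - zc P) := by ring
      rw [this]
      refine (norm_sub_le _ _).trans ?_
      rw [norm_mul, Complex.norm_real, Real.norm_of_nonneg h0.le, hv]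
      linarith
    have hζ' : m ≤ ‖zc P + t * v‖ := by
      have := norm_sub_norm_le w (zc P + t * v)
      rw [norm_sub_rev] at this
      linarith
    have hwm : m ≤ ‖w‖ := by linarith
    refine sq_sub_le hm0 ?_ ?_ ?_
    · have := hder_sub (v := v) hA hL hm0 hζ' hwm
      refine this.trans ?_
      rw [hv]
      refine div_le_div_of_nonneg_right ?_ (by positivity)
      linarith
    · have := hder_abs (v := v) hA hm0 hζ'
      rw [hv] at this
      simpa using this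
    · have := hder_abs (v := v) hA hm0 hwm
      rw [hv] at this
      simpa using this
  have k1 := key 1 (by simp)
  have k2 := key Complex.I (by simp)
  have hw0 : w ≠ 0 := by
    rw [← norm_pos_iff]; linarith
  have h3 := hder_sq w hw0
  have hm3 : 20 / m ^ 3 ≤ 48 / ‖w‖ ^ 3 := by
    rw [div_le_div_iff₀ (by positivity) (by positivity)]
    have h34 : 3 / 4 * ‖w‖ ≤ m := by linarith
    have : (3 / 4 * ‖w‖) ^ 3 ≤ m ^ 3 := pow_le_pow_left₀ (by positivity) h34 3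
    nlinarith [pow_pos (lt_of_lt_of_le (by norm_num : (0 : ℝ) < 10) hw) 3]
  unfold en tc
  rw [zc_e1, zc_e2]
  have : (20 : ℝ) / m ^ 3 = 10 / m ^ 3 + 10 / m ^ 3 := by ring
  linarith

/-- two close points on the same side have close arguments -/
theorem arg_close {z w : ℂ} (hz : z ≠ 0) (hw : w ≠ 0) (hd : ‖w - z‖ < ‖z‖)
    (hside : |w.arg - z.arg| ≤ π) : |w.arg - z.arg| ≤ π / 2 * (‖w - z‖ / ‖w‖) := by
  have hz0 : 0 < ‖z‖ := norm_pos_iff.2 hz
  have hw0 : 0 < ‖w‖ := norm_pos_iff.2 hw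
  have hzc := Complex.norm_mul_cos_arg z
  have hzs := Complex.norm_mul_sin_arg z
  have hwc := Complex.norm_mul_cos_arg w
  have hws := Complex.norm_mul_sin_arg w
  set x := w.arg - z.arg with hx
  have hcs : ∀ a b : ℂ, |a.im * b.re - a.re * b.im| ≤ ‖a‖ * ‖b‖ := by
    intro a b
    have e : a.im * b.re - a.re * b.im = (a * (starRingEnd ℂ) b).im := by
      simp [Complex.mul_im]; ring
    rw [e]
    refine (Complex.abs_im_le_norm _).trans ?_
    rw [norm_mul, Complex.norm_conj]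
  have hcc : ∀ a b : ℂ, |a.re * b.re + a.im * b.im| ≤ ‖a‖ * ‖b‖ := by
    intro a b
    have e : a.re * b.re + a.im * b.im = (a * (starRingEnd ℂ) b).re := by
      simp [Complex.mul_re]
    rw [e]
    refine (Complex.abs_re_le_norm _).trans ?_
    rw [norm_mul, Complex.norm_conj]
  have hsin : ‖w‖ * ‖z‖ * Real.sin x = (w - z).im * z.re - (w - z).re * z.im := by
    rw [hx, Real.sin_sub, Complex.sub_im, Complex.sub_re, ← hzc, ← hzs, ← hwc, ← hws]; ring
  have hcos : ‖w‖ * ‖z‖ * Real.cos x = (w - z).re * z.re + (w - z).im * z.im + ‖z‖ ^ 2 := by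
    have h2 : ‖z‖ ^ 2 = z.re ^ 2 + z.im ^ 2 := by
      rw [← Complex.normSq_eq_norm_sq, Complex.normSq_apply]; ring
    rw [hx, Real.cos_sub, h2, Complex.sub_im, Complex.sub_re]
    calc ‖w‖ * ‖z‖ * (Real.cos w.arg * Real.cos z.arg + Real.sin w.arg * Real.sin z.arg)
        = (‖w‖ * Real.cos w.arg) * (‖z‖ * Real.cos z.arg) +
          (‖w‖ * Real.sin w.arg) * (‖z‖ * Real.sin z.arg) := by ring
      _ = w.re * z.re + w.im * z.im := by rw [hzc, hzs, hwc, hws]
      _ = _ := by ring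
  have hcospos : 0 < Real.cos x := by
    have h1 := (abs_le.1 (hcc (w - z) z)).1
    have h2 : 0 < ‖w‖ * ‖z‖ * Real.cos x := by
      rw [hcos]; nlinarith
    by_contra h
    have := mul_nonpos_of_nonneg_of_nonpos (mul_pos hw0 hz0).le (not_lt.1 h)
    linarith
  have hx2 : |x| ≤ π / 2 := by
    by_contra h
    push Not at h
    have := Real.cos_nonpos_of_pi_div_two_le_of_le h.le (by linarith [Real.pi_pos])
    rw [Real.cos_abs] at this
    linarith
  have hs : |Real.sin x| ≤ ‖w - z‖ / ‖w‖ := by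
    have h1 := hcs (w - z) z
    rw [← hsin, abs_mul, abs_mul, abs_of_pos hw0, abs_of_pos hz0] at h1
    rw [le_div_iff₀ hw0]
    have : ‖z‖ * (|Real.sin x| * ‖w‖) ≤ ‖z‖ * ‖w - z‖ := by nlinarith
    exact le_of_mul_le_mul_left this hz0
  have h3 := Real.mul_le_sin (abs_nonneg x) hx2
  rw [← Real.abs_sin_eq_sin_abs_of_abs_le_pi hside] at h3
  have h4 : 2 / π * |x| ≤ ‖w - z‖ / ‖w‖ := h3.trans hs
  have h5 : |x| = π / 2 * (2 / π * |x|) := by field_simp
  rw [h5]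
  exact mul_le_mul_of_nonneg_left h4 (by positivity)

theorem side_cell {P : ℤ × ℤ} {p : ℝ × ℝ} (hp : p ∈ cell P) :
    |(wc p).arg - (zc P).arg| ≤ π := by
  obtain ⟨⟨h1, h2⟩, ⟨h3, h4⟩⟩ := hp
  rcases le_or_gt 0 P.2 with h | h
  · have hz : 0 ≤ (zc P).im := by simp only [zc]; exact_mod_cast h
    have hw : 0 ≤ (wc p).im := by simp only [wc, zc] at *; linarith
    rw [← Complex.arg_nonneg_iff] at hz hw
    rw [abs_le]
    constructor <;> linarith [Complex.arg_le_pi (wc p), Complex.arg_le_pi (zc P)]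
  · have h' : (P.2 : ℝ) + 1 ≤ 0 := by exact_mod_cast h
    have hz : (zc P).im < 0 := by simp only [zc]; linarith
    have hw : (wc p).im < 0 := by simp only [wc]; linarith
    rw [← Complex.arg_neg_iff] at hz hw
    rw [abs_le]
    constructor <;> linarith [Complex.neg_pi_lt_arg (wc p), Complex.neg_pi_lt_arg (zc P)]

theorem wc_polar {r θ : ℝ} (hr : 0 < r) (hθ : θ ∈ Ioo (-π) π) :
    ‖wc (r * Real.cos θ, r * Real.sin θ)‖ = r ∧ (wc (r * Real.cos θ, r * Real.sin θ)).arg = θ := by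
  have e : wc (r * Real.cos θ, r * Real.sin θ) =
      (r : ℂ) * (Complex.cos θ + Complex.sin θ * Complex.I) := by
    apply Complex.ext
    · simp [wc, ← Complex.ofReal_cos, ← Complex.ofReal_sin]
    · simp [wc, ← Complex.ofReal_cos, ← Complex.ofReal_sin]
  constructor
  · rw [e, norm_mul, Complex.norm_real, Real.norm_of_nonneg hr.le, Complex.norm_cos_add_sin_mul_I,
      mul_one]
  · rw [e]; exact Complex.arg_mul_cos_add_sin_mul_I hr ⟨hθ.1, hθ.2.le⟩

end Vale.Agent.P159.T1.H775
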