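import Mathlib

/-! # P159, T1, row EN: lattice energies of functions `Γ (log |z|)` in sectors -/

open Set MeasureTheory
open scoped Real ENNReal

namespace Vale.Agent.P159.T1.H775

/-- derivative of `Γ (log |z|)` in direction `v`, `γ = Γ'` -/
noncomputable def hder (γ : ℝ → ℝ) (v z : ℂ) : ℝ := γ (Real.log ‖z‖) * (v / z).re

theorem hasDerivAt_log_norm (z v : ℂ) (t : ℝ) (h : z + t * v ≠ 0) :
    HasDerivAt (fun t : ℝ => Real.log ‖z + t * v‖) ((v / (z + t * v)).re) t := by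
  have e : (fun t : ℝ => Real.log ‖z + t * v‖) =
      fun t : ℝ => Real.log ((z.re + t * v.re) ^ 2 + (z.im + t * v.im) ^ 2) / 2 := by
    funext t
    have : ‖z + t * v‖ ^ 2 = (z.re + t * v.re) ^ 2 + (z.im + t * v.im) ^ 2 := by
      rw [← Complex.normSq_eq_norm_sq, Complex.normSq_apply]
      simp; ring
    rw [← this, Real.log_pow]; simp
  rw [e]
  have hpos : (z.re + t * v.re) ^ 2 + (z.im + t * v.im) ^ 2 ≠ 0 := by
    have h1 : Complex.normSq (z + t * v) ≠ 0 := by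
      rwa [Ne, Complex.normSq_eq_zero]
    rw [Complex.normSq_apply] at h1
    simp at h1
    intro h2; apply h1; nlinarith
  have d : HasDerivAt (fun t : ℝ => (z.re + t * v.re) ^ 2 + (z.im + t * v.im) ^ 2)
      (2 * (z.re + t * v.re) * v.re + 2 * (z.im + t * v.im) * v.im) t := by
    have d1 : HasDerivAt (fun t : ℝ => z.re + t * v.re) v.re t := by
      simpa using ((hasDerivAt_id t).mul_const v.re).const_add z.re
    have d2 : HasDerivAt (fun t : ℝ => z.im + t * v.im) v.im t := by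
      simpa using ((hasDerivAt_id t).mul_const v.im).const_add z.im
    have := (d1.pow 2).add (d2.pow 2)
    exact this.congr_deriv (by push_cast; ring)
  have := (d.log hpos).div_const 2
  refine this.congr_deriv ?_
  rw [Complex.div_re, Complex.normSq_apply]
  simp only [Complex.add_re, Complex.mul_re, Complex.ofReal_re, Complex.ofReal_im, Complex.add_im,
    Complex.mul_im]
  have e1 : (z.re + (t * v.re - 0 * v.im)) * (z.re + (t * v.re - 0 * v.im)) +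
    (z.im + (t * v.im + 0 * v.re)) * (z.im + (t * v.im + 0 * v.re)) =
    (z.re + t * v.re) ^ 2 + (z.im + t * v.im) ^ 2 := by ring
  rw [e1]
  field_simp
  ring

theorem hasDerivAt_rad {Γ γ : ℝ → ℝ} (hΓ : ∀ t, HasDerivAt Γ (γ t) t) (z v : ℂ) (t : ℝ)
    (h : z + t * v ≠ 0) :
    HasDerivAt (fun t : ℝ => Γ (Real.log ‖z + t * v‖)) (hder γ v (z + t * v)) t :=
  (hΓ _).comp t (hasDerivAt_log_norm z v t h)

theorem abs_log_sub {x y m : ℝ} (hm : 0 < m) (hx : m ≤ x) (hy : m ≤ y) :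
    |Real.log x - Real.log y| ≤ |x - y| / m := by
  wlog h : y ≤ x generalizing x y
  · rw [abs_sub_comm, abs_sub_comm x]; exact this hy hx (le_of_not_ge h)
  have hy0 : 0 < y := lt_of_lt_of_le hm hy
  have hx0 : 0 < x := lt_of_lt_of_le hm hx
  rw [abs_of_nonneg (sub_nonneg.2 (Real.log_le_log hy0 h)), abs_of_nonneg (sub_nonneg.2 h),
    ← Real.log_div hx0.ne' hy0.ne']
  have h1 : Real.log (x / y) ≤ x / y - 1 := Real.log_le_sub_one_of_pos (div_pos hx0 hy0)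
  have h2 : x / y - 1 = (x - y) / y := by field_simp
  rw [h2] at h1
  exact h1.trans (div_le_div_of_nonneg_left (by linarith) hm hy)

theorem hder_abs {γ : ℝ → ℝ} {A : ℝ} (hA : ∀ t, |γ t| ≤ A) {v z : ℂ} {m : ℝ} (hm : 0 < m)
    (hz : m ≤ ‖z‖) : |hder γ v z| ≤ A * ‖v‖ / m := by
  have hA0 : 0 ≤ A := (abs_nonneg _).trans (hA 0)
  unfold hder
  rw [abs_mul]
  have h1 : |(v / z).re| ≤ ‖v‖ / m := by
    refine (Complex.abs_re_le_norm _).trans ?_
    rw [norm_div]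
    exact div_le_div_of_nonneg_left (norm_nonneg _) hm hz
  calc |γ (Real.log ‖z‖)| * |(v / z).re| ≤ A * (‖v‖ / m) :=
        mul_le_mul (hA _) h1 (abs_nonneg _) hA0
    _ = A * ‖v‖ / m := by ring

theorem hder_sub {γ : ℝ → ℝ} {A : ℝ} (hA : ∀ t, |γ t| ≤ A) (hL : ∀ s t, |γ s - γ t| ≤ A * |s - t|)
    {v z w : ℂ} {m : ℝ} (hm : 0 < m) (hz : m ≤ ‖z‖) (hw : m ≤ ‖w‖) :
    |hder γ v z - hder γ v w| ≤ 2 * A * ‖v‖ * ‖z - w‖ / m ^ 2 := by
  have hA0 : 0 ≤ A := (abs_nonneg _).trans (hA 0)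
  have hz0 : z ≠ 0 := norm_pos_iff.1 (lt_of_lt_of_le hm hz)
  have hw0 : w ≠ 0 := norm_pos_iff.1 (lt_of_lt_of_le hm hw)
  have e : hder γ v z - hder γ v w =
      (γ (Real.log ‖z‖) - γ (Real.log ‖w‖)) * (v / z).re +
        γ (Real.log ‖w‖) * ((v / z).re - (v / w).re) := by
    unfold hder; ring
  rw [e]
  have h1 : |(v / z).re| ≤ ‖v‖ / m := by
    refine (Complex.abs_re_le_norm _).trans ?_
    rw [norm_div]
    exact div_le_div_of_nonneg_left (norm_nonneg _) hm hz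
  have h2 : |γ (Real.log ‖z‖) - γ (Real.log ‖w‖)| ≤ A * (‖z - w‖ / m) := by
    refine (hL _ _).trans (mul_le_mul_of_nonneg_left ?_ hA0)
    exact (abs_log_sub hm hz hw).trans (div_le_div_of_nonneg_right (abs_norm_sub_norm_le _ _) hm.le)
  have h3 : |(v / z).re - (v / w).re| ≤ ‖v‖ * ‖z - w‖ / m ^ 2 := by
    rw [← Complex.sub_re]
    refine (Complex.abs_re_le_norm _).trans ?_
    have : v / z - v / w = v * (w - z) / (z * w) := by field_simp
    rw [this, norm_div, norm_mul, norm_mul, norm_sub_rev w z]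
    refine div_le_div_of_nonneg_left (by positivity) (by positivity) ?_
    rw [sq]; exact mul_le_mul hz hw hm.le (norm_nonneg _)
  calc |(γ (Real.log ‖z‖) - γ (Real.log ‖w‖)) * (v / z).re +
        γ (Real.log ‖w‖) * ((v / z).re - (v / w).re)|
      ≤ |(γ (Real.log ‖z‖) - γ (Real.log ‖w‖)) * (v / z).re| +
        |γ (Real.log ‖w‖) * ((v / z).re - (v / w).re)| := abs_add_le _ _
    _ ≤ (A * (‖z - w‖ / m)) * (‖v‖ / m) + A * (‖v‖ * ‖z - w‖ / m ^ 2) := by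
        rw [abs_mul, abs_mul]
        refine add_le_add (mul_le_mul h2 h1 (abs_nonneg _) (by positivity))
          (mul_le_mul (hA _) h3 (abs_nonneg _) hA0)
    _ = 2 * A * ‖v‖ * ‖z - w‖ / m ^ 2 := by field_simp; ring

/-- mean value: the increment of `Γ (log |z|)` is `hder` at an intermediate point -/
theorem exists_mid {Γ γ : ℝ → ℝ} (hΓ : ∀ t, HasDerivAt Γ (γ t) t) (z v : ℂ) (h : ‖v‖ < ‖z‖) :
    ∃ t : ℝ, 0 < t ∧ t < 1 ∧
      Γ (Real.log ‖z + v‖) - Γ (Real.log ‖z‖) = hder γ v (z + t * v) := by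
  have hne : ∀ t : ℝ, t ∈ Icc (0 : ℝ) 1 → z + t * v ≠ 0 := by
    intro t ht h0
    have h1 : ‖z‖ = ‖(t : ℂ) * v‖ := by
      have : z = -((t : ℂ) * v) := by linear_combination h0
      rw [this, norm_neg]
    rw [norm_mul, Complex.norm_real, Real.norm_of_nonneg ht.1] at h1
    nlinarith [norm_nonneg v, ht.2]
  obtain ⟨t, ht, e⟩ := exists_hasDerivAt_eq_slope (fun t : ℝ => Γ (Real.log ‖z + t * v‖))
    (fun t => hder γ v (z + t * v)) (zero_lt_one)
    (fun t ht => (hasDerivAt_rad hΓ z v t (hne t ht)).continuousAt.continuousWithinAt)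
    (fun t ht => hasDerivAt_rad hΓ z v t (hne t ⟨ht.1.le, ht.2.le⟩))
  refine ⟨t, ht.1, ht.2, ?_⟩
  rw [e]
  simp

/-- first difference -/
theorem inc_abs {Γ γ : ℝ → ℝ} {A : ℝ} (hΓ : ∀ t, HasDerivAt Γ (γ t) t) (hA : ∀ t, |γ t| ≤ A)
    {z v : ℂ} {m : ℝ} (hm : 0 < m) (hz : m + ‖v‖ ≤ ‖z‖) :
    |Γ (Real.log ‖z + v‖) - Γ (Real.log ‖z‖)| ≤ A * ‖v‖ / m := by
  obtain ⟨t, h0, h1, e⟩ := exists_mid hΓ z v (by linarith)
  rw [e]
  refine hder_abs hA hm ?_
  have : ‖z‖ ≤ ‖z + t * v‖ + ‖(t : ℂ) * v‖ := by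
    have := norm_sub_le (z + t * v) (t * v)
    simpa using this
  rw [norm_mul, Complex.norm_real, Real.norm_of_nonneg h0.le] at this
  nlinarith [norm_nonneg v]

/-- second difference -/
theorem inc_sub {Γ γ : ℝ → ℝ} {A : ℝ} (hΓ : ∀ t, HasDerivAt Γ (γ t) t) (hA : ∀ t, |γ t| ≤ A)
    (hL : ∀ s t, |γ s - γ t| ≤ A * |s - t|)
    {z u v : ℂ} {m : ℝ} (hm : 0 < m) (hz : m + ‖v‖ + ‖u‖ ≤ ‖z‖) :
    |(Γ (Real.log ‖z + u + v‖) - Γ (Real.log ‖z + u‖)) - (Γ (Real.log ‖z + v‖) - Γ (Real.log ‖z‖))|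
      ≤ 2 * A * ‖v‖ * ‖u‖ / m ^ 2 := by
  have hn : ∀ (w : ℂ) (t : ℝ), t ∈ Icc (0 : ℝ) 1 → m + ‖v‖ ≤ ‖w‖ → m ≤ ‖w + t * v‖ := by
    intro w t ht hw
    have : ‖w‖ ≤ ‖w + t * v‖ + ‖(t : ℂ) * v‖ := by
      have := norm_sub_le (w + t * v) (t * v)
      simpa using this
    rw [norm_mul, Complex.norm_real, Real.norm_of_nonneg ht.1] at this
    nlinarith [norm_nonneg v, ht.2]
  have hzu : m + ‖v‖ ≤ ‖z + u‖ := by
    have := norm_sub_le (z + u) u
    simp at this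
    linarith
  have hz' : m + ‖v‖ ≤ ‖z‖ := by linarith [norm_nonneg u]
  have hd : ∀ t ∈ Icc (0 : ℝ) 1, HasDerivAt
      (fun t : ℝ => Γ (Real.log ‖z + u + t * v‖) - Γ (Real.log ‖z + t * v‖))
      (hder γ v (z + u + t * v) - hder γ v (z + t * v)) t := by
    intro t ht
    refine (hasDerivAt_rad hΓ (z + u) v t ?_).sub (hasDerivAt_rad hΓ z v t ?_)
    · exact norm_pos_iff.1 (lt_of_lt_of_le hm (hn _ t ht hzu))
    · exact norm_pos_iff.1 (lt_of_lt_of_le hm (hn _ t ht hz'))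
  obtain ⟨t, ht, e⟩ := exists_hasDerivAt_eq_slope
    (fun t : ℝ => Γ (Real.log ‖z + u + t * v‖) - Γ (Real.log ‖z + t * v‖))
    (fun t => hder γ v (z + u + t * v) - hder γ v (z + t * v)) (zero_lt_one)
    (fun t ht => (hd t ht).continuousAt.continuousWithinAt)
    (fun t ht => hd t ⟨ht.1.le, ht.2.le⟩)
  have e2 : (Γ (Real.log ‖z + u + v‖) - Γ (Real.log ‖z + u‖)) -
      (Γ (Real.log ‖z + v‖) - Γ (Real.log ‖z‖)) =
      hder γ v (z + u + t * v) - hder γ v (z + t * v) := by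
    rw [e]; simp; ring
  rw [e2]
  have := hder_sub (v := v) hA hL hm (hn _ t ⟨ht.1.le, ht.2.le⟩ hzu) (hn _ t ⟨ht.1.le, ht.2.le⟩ hz')
  refine this.trans (le_of_eq ?_)
  congr 3
  ring_nf

end Vale.Agent.P159.T1.H775
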